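import Vale.Agent.P098.K.Moll

/-!
# P098 K/Av  (helper names start with av_)

Averages as functions of the centre.  Write `av φ f · r` as a convolution (`av_eq`, `HasCompactSupport.contDiff_convolution_left`, `HasCompactSupport.hasFDerivAt_convolution_left`) or differentiate under the integral.
`av_lap_test`: `lap (fun z => φ (r⁻¹ • (z - x))) z = r⁻¹ ^ 2 * lap φ (r⁻¹ • (z - x))` (`lap_sc`), `av_eq`.
`av_ae`: Lebesgue points (`IsUnifLocDoublingMeasure.ae_tendsto_average_norm_sub` or `Besicovitch.ae_tendsto_average_norm_sub`-type lemma with closed balls), `|av ρ f x r - f x| ≤ C ⨍ y in closedBall x r, ‖f y - f x‖`.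
-/

set_option maxSynthPendingDepth 3

open MeasureTheory Filter Topology Set Metric
open scoped ContDiff RealInnerProductSpace NNReal

noncomputable section

namespace Vale.Agent.P098

variable {d : ℕ}

variable {φ ρ Ψ f : E d → ℝ} {c : ℝ}

theorem av_two_le : (2 : WithTop ℕ∞) ≤ ∞ :=
  WithTop.coe_le_coe.2 (le_top : (2 : ℕ∞) ≤ ⊤)

/-- The convolution kernel of an average. -/
def av_ker (φ : E d → ℝ) (r : ℝ) (w : E d) : ℝ := (r ^ d)⁻¹ * φ ((-r⁻¹) • w)

theorem av_conv (φ f : E d → ℝ) {r : ℝ} (hr : 0 < r) :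
    (fun x => av φ f x r) =
      MeasureTheory.convolution f (av_ker φ r) (ContinuousLinearMap.mul ℝ ℝ) volume := by
  funext x
  rw [av_eq φ f x hr, convolution_def, ← integral_const_mul]
  refine integral_congr_ae (Eventually.of_forall fun z => ?_)
  have e : (-r⁻¹) • (x - z) = r⁻¹ • (z - x) := by
    rw [neg_smul, ← smul_neg, neg_sub]
  simp only [av_ker, ContinuousLinearMap.mul_apply', e]
  ring

theorem av_ker_smooth (hφ : ContDiff ℝ ∞ φ) (r : ℝ) : ContDiff ℝ ∞ (av_ker φ r) :=
  contDiff_const.mul (hφ.comp (contDiff_const_smul (-r⁻¹)))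

theorem av_ker_supp (hc : HasCompactSupport φ) {r : ℝ} (hr : 0 < r) :
    HasCompactSupport (av_ker φ r) :=
  (hc.comp_smul (neg_ne_zero.2 (inv_ne_zero hr.ne'))).mul_left

theorem av_ker_fderiv (hφ : ContDiff ℝ ∞ φ) (r : ℝ) (w v : E d) :
    fderiv ℝ (av_ker φ r) w v = -r⁻¹ * av_ker (fun y => fderiv ℝ φ y v) r w := by
  have h1 : HasFDerivAt (fun w : E d => (-r⁻¹) • w) ((-r⁻¹) • ContinuousLinearMap.id ℝ (E d)) w :=
    (hasFDerivAt_id w).const_smul (-r⁻¹)
  have h2 := (((hφ.differentiable (by simp)) ((-r⁻¹) • w)).hasFDerivAt.comp w h1).const_mul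
    (r ^ d)⁻¹
  have h3 : fderiv ℝ (av_ker φ r) w = _ := h2.fderiv
  rw [h3]
  simp only [av_ker, smul_apply, ContinuousLinearMap.comp_apply, ContinuousLinearMap.id_apply,
    map_smul, smul_eq_mul]
  ring

theorem av_d_smooth (hφ : ContDiff ℝ ∞ φ) (v : E d) : ContDiff ℝ ∞ fun y => fderiv ℝ φ y v :=
  contDiff_iff_contDiffAt.2 fun _ => contDiffAt_fderiv_apply hφ.contDiffAt v

theorem av_abs_le (hφ : Continuous φ) (hz : ∀ y, 1 ≤ ‖y‖ → φ y = 0) {x : E d} {r M : ℝ}
    (hr : 0 < r) (h : ∀ y, ‖y - x‖ < r → |f y| ≤ M) : |av φ f x r| ≤ (∫ y, |φ y|) * M := by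
  have hc : HasCompactSupport φ :=
    HasCompactSupport.intro (isCompact_closedBall (0 : E d) 1) fun y hy =>
      hz y (le_of_lt (by simpa using hy))
  have hi : Integrable fun y => |φ y| * M := ((hφ.integrable_of_hasCompactSupport hc).abs).mul_const M
  rw [← integral_mul_const, ← Real.norm_eq_abs]
  refine norm_integral_le_of_norm_le hi (Eventually.of_forall fun y => ?_)
  rw [Real.norm_eq_abs, abs_mul]
  by_cases hy : 1 ≤ ‖y‖
  · simp [hz y hy]
  · refine mul_le_mul_of_nonneg_left (h _ ?_) (abs_nonneg _)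
    rw [add_sub_cancel_left, norm_smul, Real.norm_eq_abs, abs_of_pos hr]
    nlinarith [not_le.1 hy]

theorem Mol.av_supp (h : Mol ρ Ψ c) : HasCompactSupport ρ :=
  HasCompactSupport.intro (isCompact_closedBall (0 : E d) 1) fun y hy =>
    (h.z y (le_of_lt (by simpa using hy))).1

theorem Mol.av_sub (h : Mol ρ Ψ c) (hf : LocallyIntegrable f) (x : E d) {r : ℝ} (hr : 0 < r)
    (a : ℝ) : av ρ f x r - a = av ρ (fun y => f y - a) x r := by
  have h1 := av_int h.sρ.continuous h.av_supp hf x hr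
  have h2 : Integrable fun y => ρ y * a :=
    (h.sρ.continuous.integrable_of_hasCompactSupport h.av_supp).mul_const a
  unfold av
  simp only [mul_sub]
  rw [integral_sub h1 h2, integral_mul_const, h.one, one_mul]

theorem av_contDiff (hφ : ContDiff ℝ ∞ φ) (hc : HasCompactSupport φ) (hf : LocallyIntegrable f)
    {r : ℝ} (hr : 0 < r) : ContDiff ℝ ∞ fun x => av φ f x r := by
  rw [av_conv φ f hr]
  exact (av_ker_supp hc hr).contDiff_convolution_right _ hf (av_ker_smooth hφ r)

theorem av_fderiv (hφ : ContDiff ℝ ∞ φ) (hc : HasCompactSupport φ) (hf : LocallyIntegrable f)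
    {r : ℝ} (hr : 0 < r) (x v : E d) :
    fderiv ℝ (fun x => av φ f x r) x v = -(av (fun y => fderiv ℝ φ y v) f x r) / r := by
  have hs := av_ker_smooth hφ r
  have h1 := (av_ker_supp hc hr).hasFDerivAt_convolution_right (ContinuousLinearMap.mul ℝ ℝ) hf
    (hs.of_le (by simp)) x
  have h2 := congrFun (av_conv (fun y => fderiv ℝ φ y v) f hr) x
  rw [av_conv φ f hr, h1.fderiv, convolution_precompR_apply _ hf ((av_ker_supp hc hr).fderiv ℝ)
    (hs.continuous_fderiv (by simp)), h2, convolution_def, convolution_def, div_eq_mul_inv,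
    ← integral_neg, ← integral_mul_const]
  refine integral_congr_ae (Eventually.of_forall fun z => ?_)
  simp only [ContinuousLinearMap.mul_apply', av_ker_fderiv hφ]
  ring

theorem av_lap (hφ : ContDiff ℝ ∞ φ) (hc : HasCompactSupport φ) (hf : LocallyIntegrable f)
    {r : ℝ} (hr : 0 < r) (x : E d) :
    lap (fun x => av φ f x r) x = av (lap φ) f x r / r ^ 2 := by
  have hs := av_contDiff hφ hc hf hr
  have h1 : ∀ i, D2 (fun x => av φ f x r) x (bv i) (bv i) =
      av (fun y => D2 φ y (bv i) (bv i)) f x r / r ^ 2 := by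
    intro i
    have hd := av_d_smooth hφ (bv i)
    have hdc : HasCompactSupport fun y => fderiv ℝ φ y (bv i) := hc.fderiv_apply ℝ (bv i)
    have e1 : (fun y => fderiv ℝ (fun x => av φ f x r) y (bv i)) =
        fun y => (-r⁻¹) * av (fun y => fderiv ℝ φ y (bv i)) f y r := by
      funext y
      rw [av_fderiv hφ hc hf hr]
      ring
    have e2 : (fun y => D2 φ y (bv i) (bv i)) =
        fun y => fderiv ℝ (fun y => fderiv ℝ φ y (bv i)) y (bv i) := by
      funext y
      exact D2_apply (hφ.contDiffAt.of_le av_two_le) _ _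
    rw [D2_apply (hs.contDiffAt.of_le av_two_le), e1, e2,
      fderiv_const_mul ((av_contDiff hd hdc hf hr).differentiable (by simp) x), smul_apply,
      av_fderiv hd hdc hf hr, smul_eq_mul]
    field_simp
  have h2 : ∀ i, Integrable fun y => D2 φ y (bv i) (bv i) * f (x + r • y) := by
    intro i
    have e2 : (fun y => D2 φ y (bv i) (bv i)) =
        fun y => fderiv ℝ (fun y => fderiv ℝ φ y (bv i)) y (bv i) := by
      funext y
      exact D2_apply (hφ.contDiffAt.of_le av_two_le) _ _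
    refine av_int (φ := fun y => D2 φ y (bv i) (bv i)) ?_ ?_ hf x hr
    · rw [e2]
      exact (av_d_smooth (av_d_smooth hφ (bv i)) (bv i)).continuous
    · rw [e2]
      exact (hc.fderiv_apply ℝ (bv i)).fderiv_apply ℝ (bv i)
  show ∑ i, D2 (fun x => av φ f x r) x (bv i) (bv i) =
    (∫ y, (∑ i, D2 φ y (bv i) (bv i)) * f (x + r • y)) / r ^ 2
  simp only [h1, Finset.sum_mul]
  rw [integral_finsetSum _ fun i _ => h2 i, Finset.sum_div]
  rfl

theorem av_lap_test (φ f : E d → ℝ) (x : E d) {r : ℝ} (hr : 0 < r) :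
    av (lap φ) f x r = r ^ 2 * (r ^ d)⁻¹ * ∫ z, lap (fun z => φ (r⁻¹ • (z - x))) z * f z := by
  have key : ∀ z, lap φ (r⁻¹ • (z - x)) = r ^ 2 * lap (fun z => φ (r⁻¹ • (z - x))) z := by
    intro z
    have h1 := lap_sc φ (-(r⁻¹ • x)) (inv_ne_zero hr.ne') z
    have e0 : ∀ z : E d, -(r⁻¹ • x) + r⁻¹ • z = r⁻¹ • (z - x) := by
      intro z
      rw [smul_sub]
      abel
    have e1 : sc φ (-(r⁻¹ • x)) r⁻¹ = r • fun z => φ (r⁻¹ • (z - x)) := by
      funext z
      simp only [sc, e0, Pi.smul_apply, smul_eq_mul, div_inv_eq_mul]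
      ring
    have e2 : D2 (r • fun z => φ (r⁻¹ • (z - x))) z = r • D2 (fun z => φ (r⁻¹ • (z - x))) z := by
      unfold D2
      rw [fderiv_const_smul_field, fderiv_const_smul_field]
      rfl
    have e3 : lap (r • fun z => φ (r⁻¹ • (z - x))) z = r * lap (fun z => φ (r⁻¹ • (z - x))) z := by
      unfold lap tr
      rw [e2, Finset.mul_sum]
      rfl
    rw [e1, e3, e0] at h1
    have h2 : lap φ (r⁻¹ • (z - x)) = r * (r⁻¹ * lap φ (r⁻¹ • (z - x))) := by
      field_simp
    rw [h2, ← h1]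
    ring
  rw [av_eq _ f x hr]
  simp only [key, mul_assoc]
  rw [integral_const_mul]
  ring

theorem Mol.tendsto (h : Mol ρ Ψ c) (hf : Continuous f) (x : E d) :
    Tendsto (av ρ f x) (𝓝[>] 0) (𝓝 (f x)) := by
  rw [Metric.tendsto_nhds]
  intro ε hε
  obtain ⟨δ, hδ, h1⟩ := Metric.continuousAt_iff.1 (hf.continuousAt (x := x)) (ε / 2) (half_pos hε)
  filter_upwards [Ioo_mem_nhdsGT hδ] with r hr
  rw [Real.dist_eq, h.av_sub hf.locallyIntegrable x hr.1]
  have h2 := av_abs_le (f := fun y => f y - f x) (x := x) (M := ε / 2) h.sρ.continuous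
    (fun y hy => (h.z y hy).1) hr.1 (fun y hy => by
      have := h1 (x := y) (by rw [dist_eq_norm]; exact hy.trans hr.2)
      rw [Real.dist_eq] at this
      exact this.le)
  have h3 : ∫ y, |ρ y| = 1 := by
    simp only [abs_of_nonneg (h.ρ0 _)]
    exact h.one
  rw [h3] at h2
  linarith

theorem Mol.ae_tendsto (h : Mol ρ Ψ c) (hf : LocallyIntegrable f) :
    ∀ᵐ x, Tendsto (av ρ f x) (𝓝[>] 0) (𝓝 (f x)) := by
  obtain ⟨M, hM⟩ := h.sρ.continuous.bounded_above_of_compact_support h.av_supp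
  filter_upwards [IsUnifLocDoublingMeasure.ae_tendsto_average_norm_sub volume hf 1] with x hx
  have h1 := hx (fun _ : ℝ => x) (fun r => r) (l := 𝓝[>] 0) tendsto_id (by
    filter_upwards [self_mem_nhdsWithin] with r hr
    exact mem_closedBall_self (by rw [one_mul]; exact le_of_lt hr))
  have h2 := h1.const_mul (M * (volume (closedBall (0 : E d) 1)).toReal)
  rw [mul_zero] at h2
  rw [tendsto_iff_norm_sub_tendsto_zero]
  refine squeeze_zero' (Eventually.of_forall fun _ => norm_nonneg _) ?_ h2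
  filter_upwards [self_mem_nhdsWithin] with r hr
  have hr0 : 0 < r := hr
  have hp : 0 < r ^ d := pow_pos hr0 d
  have hi : IntegrableOn (fun y => ‖f y - f x‖) (closedBall x r) :=
    ((hf.integrableOn_isCompact (isCompact_closedBall x r)).sub
      (integrableOn_const (measure_closedBall_lt_top).ne)).norm
  have h3 : ‖∫ z, ρ (r⁻¹ • (z - x)) * (f z - f x)‖ ≤ M * ∫ y in closedBall x r, ‖f y - f x‖ := by
    rw [← integral_const_mul, ← integral_indicator measurableSet_closedBall]
    refine norm_integral_le_of_norm_le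
      ((integrable_indicator_iff measurableSet_closedBall).2 (hi.const_mul M))
      (Eventually.of_forall fun z => ?_)
    by_cases hz : z ∈ closedBall x r
    · rw [indicator_of_mem hz, norm_mul]
      exact mul_le_mul_of_nonneg_right (hM _) (norm_nonneg _)
    · rw [indicator_of_notMem hz, (h.z _ ?_).1, zero_mul, norm_zero]
      rw [mem_closedBall, dist_eq_norm, not_le] at hz
      rw [norm_smul, Real.norm_eq_abs, abs_of_pos (inv_pos.2 hr0), ← div_eq_inv_mul,
        le_div_iff₀ hr0]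
      linarith
  have h4 : ∫ y in closedBall x r, ‖f y - f x‖ =
      r ^ d * (volume (closedBall (0 : E d) 1)).toReal * ⨍ y in closedBall x r, ‖f y - f x‖ := by
    rw [← measure_smul_setAverage _ (measure_closedBall_lt_top).ne, smul_eq_mul, measureReal_def,
      Measure.addHaar_closedBall' volume x hr0.le, ENNReal.toReal_mul,
      ENNReal.toReal_ofReal (by positivity), finrank_euclideanSpace_fin]
  rw [h.av_sub hf x hr0, av_eq _ _ x hr0, norm_mul, Real.norm_eq_abs, abs_of_pos (inv_pos.2 hp),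
    inv_mul_le_iff₀ hp]
  rw [h4] at h3
  linarith

theorem abs_av_le (hφ : Continuous φ) (hz : ∀ y, 1 ≤ ‖y‖ → φ y = 0) {x : E d} {r M : ℝ} (hr : 0 < r)
    (h : ∀ y, ‖y - x‖ < r → |f y| ≤ M) : |av φ f x r| ≤ (∫ y, |φ y|) * M := by
  exact av_abs_le hφ hz hr h


end Vale.Agent.P098
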