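import Vale.Agent.P098.K.Alg

/-!
# P098 K/Calc  (helper names start with calc_)

Calculus rules for `D2`, `D3`, `lap`.  `ContDiffAt.isSymmSndFDerivAt`, `fderiv_clm_apply`, `Filter.EventuallyEq.fderiv`, `ContDiffAt.eventually`, `ContDiffAt.fderiv_right`.
`even_fderiv`: differentiate `t ↦ f (x + t • e) = f (x - t • e)` at `0` (or the chain rule with `exists_rfL`).
-/

set_option maxSynthPendingDepth 3

open MeasureTheory Filter Topology Set Metric
open scoped ContDiff RealInnerProductSpace NNReal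

noncomputable section

namespace Vale.Agent.P098

variable {d : ℕ}

variable {f g : E d → ℝ} {x : E d}

theorem calc_app {F : Type} [NormedAddCommGroup F] [NormedSpace ℝ F] {c : E d → E d →L[ℝ] F}
    (hc : DifferentiableAt ℝ c x) (v w : E d) :
    fderiv ℝ (fun y => c y w) x v = fderiv ℝ c x v w := by
  rw [fderiv_clm_apply hc (differentiableAt_const _)]
  simp

theorem calc_d1 (hf : ContDiffAt ℝ 2 f x) : DifferentiableAt ℝ (fderiv ℝ f) x :=
  (hf.fderiv_right (m := 1) (by norm_num)).differentiableAt (by norm_num)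

theorem calc_d2 (hf : ContDiffAt ℝ 3 f x) : DifferentiableAt ℝ (D2 f) x :=
  ((hf.fderiv_right (m := 2) (by norm_num)).fderiv_right (m := 1)
    (by norm_num)).differentiableAt (by norm_num)

theorem calc_ev1 (hf : ContDiffAt ℝ 2 f x) : ∀ᶠ y in 𝓝 x, DifferentiableAt ℝ f y :=
  (hf.eventually (by simp)).mono fun _ hy => hy.differentiableAt (by norm_num)

theorem calc_ev2 (hf : ContDiffAt ℝ 3 f x) : ∀ᶠ y in 𝓝 x, ContDiffAt ℝ 2 f y :=
  (hf.eventually (by simp)).mono fun _ hy => hy.of_le (by norm_num)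

theorem calc_c2 (hf : ContDiffAt ℝ 3 f x) (w : E d) :
    ContDiffAt ℝ 2 (fun y => fderiv ℝ f y w) x :=
  (hf.fderiv_right (m := 2) (by norm_num)).clm_apply contDiffAt_const

theorem calc_fderiv_inner (e x : E d) : fderiv ℝ (fun y : E d => ⟪e, y⟫) x = innerSL ℝ e :=
  (innerSL ℝ e).fderiv

theorem calc_aff {F : Type} [NormedAddCommGroup F] [NormedSpace ℝ F] (U : E d → F) (x₀ : E d)
    (r : ℝ) (x : E d) :
    fderiv ℝ (fun y => U (x₀ + r • y)) x = r • fderiv ℝ U (x₀ + r • x) := by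
  have h := fderiv_comp_smul (𝕜 := ℝ) (f := fun y => U (x₀ + y)) (x := x) r
  rw [fderiv_comp_add_left] at h
  exact h

theorem calc_smul {F : Type} [NormedAddCommGroup F] [NormedSpace ℝ F] (U : E d → F) (c : ℝ)
    (x : E d) : fderiv ℝ (fun y => c • U y) x = c • fderiv ℝ U x :=
  congrFun (fderiv_const_smul_field (𝕜 := ℝ) (f := U) c) x

theorem calc_le2 : (2 : WithTop ℕ∞) ≤ ∞ := ENat.LEInfty.out

theorem calc_le3 : (3 : WithTop ℕ∞) ≤ ∞ := ENat.LEInfty.out

theorem D2_apply (hf : ContDiffAt ℝ 2 f x) (v w : E d) :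
    D2 f x v w = fderiv ℝ (fun y => fderiv ℝ f y w) x v := by
  exact (calc_app (calc_d1 hf) v w).symm
theorem D2_symm (hf : ContDiffAt ℝ 2 f x) (v w : E d) : D2 f x v w = D2 f x w v := by
  exact (hf.isSymmSndFDerivAt (by simp)) v w
theorem D3_apply (hf : ContDiffAt ℝ 3 f x) (a v w : E d) :
    D3 f x a v w = fderiv ℝ (fun y => D2 f y v w) x a := by
  have h1 := calc_d2 hf
  rw [calc_app (c := fun y => D2 f y v) (h1.clm_apply (differentiableAt_const _)) a w,
    calc_app h1 a v]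
  rfl
theorem D3_apply' (hf : ContDiffAt ℝ 3 f x) (a v w : E d) :
    D3 f x a v w = D2 (fun y => fderiv ℝ f y w) x a v := by
  rw [D3_apply hf, D2_apply (calc_c2 hf w)]
  have h : (fun y => D2 f y v w) =ᶠ[𝓝 x] fun y => fderiv ℝ (fun y => fderiv ℝ f y w) y v :=
    (calc_ev2 hf).mono fun y hy => D2_apply hy v w
  rw [h.fderiv_eq]
theorem D3_symm (hf : ContDiffAt ℝ 3 f x) (a v w : E d) :
    D3 f x a v w = D3 f x v a w ∧ D3 f x a v w = D3 f x a w v := by
  constructor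
  · rw [D3_apply' hf, D3_apply' hf, D2_symm (calc_c2 hf w)]
  · have h : (fun y => D2 f y v w) =ᶠ[𝓝 x] fun y => D2 f y w v :=
      (calc_ev2 hf).mono fun y hy => D2_symm hy v w
    rw [D3_apply hf, D3_apply hf, h.fderiv_eq]
theorem D2_congr (h : f =ᶠ[𝓝 x] g) : D2 f x = D2 g x := by
  exact h.fderiv.fderiv_eq
theorem D3_congr (h : f =ᶠ[𝓝 x] g) : D3 f x = D3 g x := by
  exact h.fderiv.fderiv.fderiv_eq
theorem lap_congr (h : f =ᶠ[𝓝 x] g) : lap f x = lap g x := by
  unfold lap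
  rw [D2_congr h]
theorem contDiffAt_D2 (hf : ContDiffAt ℝ ∞ f x) : ContDiffAt ℝ ∞ (D2 f) x := by
  exact (hf.fderiv_right (m := ∞) le_rfl).fderiv_right (m := ∞) le_rfl
theorem contDiffAt_fderiv_apply (hf : ContDiffAt ℝ ∞ f x) (v : E d) :
    ContDiffAt ℝ ∞ (fun y => fderiv ℝ f y v) x := by
  exact (hf.fderiv_right (m := ∞) le_rfl).clm_apply contDiffAt_const
theorem contDiffAt_gradient (hf : ContDiffAt ℝ ∞ f x) : ContDiffAt ℝ ∞ (gradient f) x := by
  rw [contDiffAt_euclidean]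
  intro i
  simp only [gradient_apply]
  exact contDiffAt_fderiv_apply hf _
theorem continuous_lap (hf : ContDiff ℝ 2 f) : Continuous (lap f) := by
  exact continuous_tr.comp ((hf.fderiv_right (m := 1) (by norm_num)).fderiv_right (m := 0)
    (by norm_num)).continuous
theorem D2_add (hf : ContDiffAt ℝ 2 f x) (hg : ContDiffAt ℝ 2 g x) :
    D2 (fun y => f y + g y) x = D2 f x + D2 g x := by
  have h : fderiv ℝ (fun y => f y + g y) =ᶠ[𝓝 x] fun y => fderiv ℝ f y + fderiv ℝ g y := by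
    filter_upwards [calc_ev1 hf, calc_ev1 hg] with y h1 h2
    exact fderiv_fun_add h1 h2
  unfold D2
  rw [h.fderiv_eq]
  exact fderiv_fun_add (calc_d1 hf) (calc_d1 hg)
theorem D2_sub (hf : ContDiffAt ℝ 2 f x) (hg : ContDiffAt ℝ 2 g x) :
    D2 (fun y => f y - g y) x = D2 f x - D2 g x := by
  have h : fderiv ℝ (fun y => f y - g y) =ᶠ[𝓝 x] fun y => fderiv ℝ f y - fderiv ℝ g y := by
    filter_upwards [calc_ev1 hf, calc_ev1 hg] with y h1 h2
    exact fderiv_fun_sub h1 h2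
  unfold D2
  rw [h.fderiv_eq]
  exact fderiv_fun_sub (calc_d1 hf) (calc_d1 hg)
theorem D2_const_mul (c : ℝ) (hf : ContDiffAt ℝ 2 f x) :
    D2 (fun y => c * f y) x = c • D2 f x := by
  have h : fderiv ℝ (fun y => c * f y) =ᶠ[𝓝 x] fun y => c • fderiv ℝ f y := by
    filter_upwards [calc_ev1 hf] with y h1
    exact fderiv_const_mul h1 c
  unfold D2
  rw [h.fderiv_eq]
  exact calc_smul _ c x
theorem D3_sub (hf : ContDiffAt ℝ 3 f x) (hg : ContDiffAt ℝ 3 g x) :
    D3 (fun y => f y - g y) x = D3 f x - D3 g x := by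
  have h : D2 (fun y => f y - g y) =ᶠ[𝓝 x] fun y => D2 f y - D2 g y := by
    filter_upwards [calc_ev2 hf, calc_ev2 hg] with y h1 h2
    exact D2_sub h1 h2
  unfold D3
  rw [h.fderiv_eq]
  exact fderiv_fun_sub (calc_d2 hf) (calc_d2 hg)
theorem lap_add (hf : ContDiffAt ℝ 2 f x) (hg : ContDiffAt ℝ 2 g x) :
    lap (fun y => f y + g y) x = lap f x + lap g x := by
  unfold lap
  rw [D2_add hf hg, tr_add]
theorem lap_sub (hf : ContDiffAt ℝ 2 f x) (hg : ContDiffAt ℝ 2 g x) :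
    lap (fun y => f y - g y) x = lap f x - lap g x := by
  unfold lap
  rw [D2_sub hf hg, tr_sub]
theorem lap_const_mul (c : ℝ) (hf : ContDiffAt ℝ 2 f x) :
    lap (fun y => c * f y) x = c * lap f x := by
  unfold lap
  rw [D2_const_mul c hf, tr_smul]
theorem lap_const (c : ℝ) (x : E d) : lap (fun _ => c) x = 0 := by
  simp [lap, tr, D2]
theorem lap_inner (e x : E d) : lap (fun y => ⟪e, y⟫) x = 0 := by
  have h : fderiv ℝ (fun y : E d => ⟪e, y⟫) = fun _ => innerSL ℝ e :=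
    funext (calc_fderiv_inner e)
  simp [lap, tr, D2, h]
theorem fderiv_inner (e x : E d) : fderiv ℝ (fun y : E d => ⟪e, y⟫) x = innerSL ℝ e := by
  exact calc_fderiv_inner e x
theorem contDiff_inner' (e : E d) : ContDiff ℝ ∞ fun y : E d => ⟪e, y⟫ := by
  exact (innerSL ℝ e).contDiff
theorem fderiv_normSq (x v : E d) : fderiv ℝ (fun y : E d => ‖y‖ ^ 2) x v = 2 * ⟪x, v⟫ := by
  rw [fderiv_norm_sq_apply]
  simp
theorem lap_normSq (x : E d) : lap (fun y => ‖y‖ ^ 2) x = 2 * d := by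
  have h : ∀ v : E d, D2 (fun y : E d => ‖y‖ ^ 2) x v v = 2 * ‖v‖ ^ 2 := by
    intro v
    rw [D2_apply (contDiff_norm_sq ℝ).contDiffAt]
    have h1 : (fun y : E d => fderiv ℝ (fun y : E d => ‖y‖ ^ 2) y v) =
        fun y => ⟪(2 : ℝ) • v, y⟫ := by
      funext y
      rw [fderiv_normSq, real_inner_smul_left, real_inner_comm]
    rw [h1, fderiv_inner, innerSL_apply_apply, real_inner_smul_left, real_inner_self_eq_norm_sq]
  simp [lap, tr, h, norm_bv, mul_comm]
theorem lap_mul (hf : ContDiffAt ℝ 2 f x) (hg : ContDiffAt ℝ 2 g x) :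
    lap (fun y => f y * g y) x = f x * lap g x + 2 * dot f g x + g x * lap f x := by
  have h : fderiv ℝ (fun y => f y * g y) =ᶠ[𝓝 x]
      fun y => f y • fderiv ℝ g y + g y • fderiv ℝ f y := by
    filter_upwards [calc_ev1 hf, calc_ev1 hg] with y h1 h2
    exact fderiv_fun_mul h1 h2
  have h1 := ((hf.differentiableAt (by norm_num)).hasFDerivAt.smul (calc_d1 hg).hasFDerivAt).add
    ((hg.differentiableAt (by norm_num)).hasFDerivAt.smul (calc_d1 hf).hasFDerivAt)
  have h2 : ∀ v, D2 (fun y => f y * g y) x v v = f x * D2 g x v v +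
      2 * (fderiv ℝ f x v * fderiv ℝ g x v) + g x * D2 f x v v := by
    intro v
    unfold D2
    rw [h.fderiv_eq]
    erw [h1.fderiv]
    simp
    ring
  simp only [lap, tr, dot, h2, Finset.sum_add_distrib, Finset.mul_sum]
theorem lap_comp {φ φ' φ'' : ℝ → ℝ} (h1 : ∀ t, HasDerivAt φ (φ' t) t)
    (h2 : ∀ t, HasDerivAt φ' (φ'' t) t) (hf : ContDiffAt ℝ 2 f x) :
    lap (fun y => φ (f y)) x = φ' (f x) * lap f x + φ'' (f x) * ‖fderiv ℝ f x‖ ^ 2 := by
  have h : fderiv ℝ (fun y => φ (f y)) =ᶠ[𝓝 x] fun y => φ' (f y) • fderiv ℝ f y := by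
    filter_upwards [calc_ev1 hf] with y hy
    exact ((h1 (f y)).comp_hasFDerivAt y hy.hasFDerivAt).fderiv
  have h3 := ((h2 (f x)).comp_hasFDerivAt x (hf.differentiableAt (by norm_num)).hasFDerivAt).smul
    (calc_d1 hf).hasFDerivAt
  have h4 : ∀ v, D2 (fun y => φ (f y)) x v v = φ' (f x) * D2 f x v v +
      φ'' (f x) * fderiv ℝ f x v ^ 2 := by
    intro v
    unfold D2
    rw [h.fderiv_eq]
    erw [h3.fderiv]
    simp
    ring
  simp only [lap, tr, h4, Finset.sum_add_distrib, ← Finset.mul_sum, sum_sq_bv]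
theorem fderiv_sc (u : E d → ℝ) (x₀ : E d) {r : ℝ} (hr : r ≠ 0) (x : E d) :
    fderiv ℝ (sc u x₀ r) x = fderiv ℝ u (x₀ + r • x) := by
  have h : sc u x₀ r = fun y => r⁻¹ • u (x₀ + r • y) := by
    funext y
    simp [sc, div_eq_inv_mul]
  rw [h, calc_smul, calc_aff, smul_smul, inv_mul_cancel₀ hr, one_smul]
theorem D2_sc (u : E d → ℝ) (x₀ : E d) {r : ℝ} (hr : r ≠ 0) (x : E d) :
    D2 (sc u x₀ r) x = r • D2 u (x₀ + r • x) := by
  have h : fderiv ℝ (sc u x₀ r) = fun y => fderiv ℝ u (x₀ + r • y) := funext (fderiv_sc u x₀ hr)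
  unfold D2
  rw [h, calc_aff]
theorem D3_sc (u : E d → ℝ) (x₀ : E d) {r : ℝ} (hr : r ≠ 0) (x : E d) :
    D3 (sc u x₀ r) x = r ^ 2 • D3 u (x₀ + r • x) := by
  have h : D2 (sc u x₀ r) = fun y => r • D2 u (x₀ + r • y) := funext (D2_sc u x₀ hr)
  unfold D3
  rw [h, calc_smul, calc_aff, smul_smul, sq]
theorem lap_sc (u : E d → ℝ) (x₀ : E d) {r : ℝ} (hr : r ≠ 0) (x : E d) :
    lap (sc u x₀ r) x = r * lap u (x₀ + r • x) := by
  unfold lap
  rw [D2_sc u x₀ hr, tr_smul]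
theorem contDiffAt_sc {n : WithTop ℕ∞} {u : E d → ℝ} {x₀ : E d} {r : ℝ}
    (h : ContDiffAt ℝ n u (x₀ + r • x)) : ContDiffAt ℝ n (sc u x₀ r) x := by
  have h1 : ContDiffAt ℝ n (fun y : E d => x₀ + r • y) x :=
    contDiffAt_const.add (contDiffAt_id.const_smul r)
  exact (ContDiffAt.comp x (g := u) h h1).div_const r
theorem calc_iso {F : Type} [NormedAddCommGroup F] [NormedSpace ℝ F] (R : E d ≃ₗᵢ[ℝ] E d)
    (f : E d → F) (x : E d) :
    fderiv ℝ (fun y => f (R y)) x = (fderiv ℝ f (R x)).comp (R : E d →L[ℝ] E d) :=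
  R.toContinuousLinearEquiv.comp_right_fderiv (f := f) (x := x)

theorem calc_D2_iso (R : E d ≃ₗᵢ[ℝ] E d) (f : E d → ℝ) (x v w : E d) :
    D2 (fun y => f (R y)) x v w = D2 f (R x) (R v) (R w) := by
  let A : B1 d ≃L[ℝ] B1 d :=
    R.toContinuousLinearEquiv.symm.arrowCongr (ContinuousLinearEquiv.refl ℝ ℝ)
  have hA : ∀ (l : B1 d) (z : E d), A l z = l (R z) := fun l z => rfl
  have h : fderiv ℝ (fun y => f (R y)) = A ∘ fun y => fderiv ℝ f (R y) := by
    funext y
    ext z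
    rw [calc_iso]
    exact (hA _ _).symm
  unfold D2
  rw [h, A.comp_fderiv, calc_iso]
  exact hA _ _

theorem norm_fderiv_iso (R : E d ≃ₗᵢ[ℝ] E d) (f : E d → ℝ) (x : E d) :
    ‖fderiv ℝ (fun y => f (R y)) x‖ = ‖fderiv ℝ f (R x)‖ := by
  rw [calc_iso]
  exact ContinuousLinearMap.opNorm_comp_linearIsometryEquiv _ R
theorem fderiv_iso (R : E d ≃ₗᵢ[ℝ] E d) (f : E d → ℝ) (x v : E d) :
    fderiv ℝ (fun y => f (R y)) x v = fderiv ℝ f (R x) (R v) := by
  rw [calc_iso]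
  rfl
theorem lap_iso (R : E d ≃ₗᵢ[ℝ] E d) (f : E d → ℝ) (x : E d) :
    lap (fun y => f (R y)) x = lap f (R x) := by
  unfold lap
  rw [← tr_iso R (D2 f (R x))]
  exact Finset.sum_congr rfl fun i _ => calc_D2_iso R f x _ _
theorem even_fderiv {e : E d} (he : ‖e‖ = 1) (h : ∀ y, f (rf e y) = f y) (hx : ⟪e, x⟫ = 0) :
    fderiv ℝ f x e = 0 := by
  obtain ⟨R, hR⟩ := exists_rfL he
  have h1 : (fun y => f (R y)) = f := funext fun y => by rw [hR, h]
  have h2 := fderiv_iso R f x e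
  have h3 : R x = x := by rw [hR, rf, hx]; simp
  have h4 : R e = -e := by
    rw [hR, rf, real_inner_self_eq_norm_sq, he]
    module
  rw [h1, h3, h4, map_neg] at h2
  linarith
theorem Harm.sub {O : Set (E d)} (hf : Harm f O) (hg : Harm g O) :
    Harm (fun y => f y - g y) O := by
  intro x hx
  refine ⟨(hf x hx).1.sub (hg x hx).1, ?_⟩
  rw [lap_sub ((hf x hx).1.of_le calc_le2) ((hg x hx).1.of_le calc_le2), (hf x hx).2, (hg x hx).2,
    sub_zero]
theorem Harm.const_mul {O : Set (E d)} (hf : Harm f O) (c : ℝ) :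
    Harm (fun y => c * f y) O := by
  intro x hx
  refine ⟨contDiffAt_const.mul (hf x hx).1, ?_⟩
  rw [lap_const_mul c ((hf x hx).1.of_le calc_le2), (hf x hx).2, mul_zero]
theorem Harm.mono {O O' : Set (E d)} (hf : Harm f O) (h : O' ⊆ O) : Harm f O' := by
  exact fun x hx => hf x (h hx)
theorem calc_lap_fderiv (hf : ContDiffAt ℝ 3 f x) (v : E d) :
    lap (fun y => fderiv ℝ f y v) x = fderiv ℝ (lap f) x v := by
  have h1 := calc_d2 hf
  have h2 : lap f = fun y => ∑ i, D2 f y (bv i) (bv i) := rfl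
  rw [h2, fderiv_fun_sum fun i _ => (h1.clm_apply (differentiableAt_const _)).clm_apply
    (differentiableAt_const _), sum_apply]
  unfold lap tr
  refine Finset.sum_congr rfl fun i _ => ?_
  rw [← D3_apply hf, ← D3_apply' hf, (D3_symm hf _ _ _).2, (D3_symm hf _ _ _).1]

theorem calc_harm {O : Set (E d)} (hO : IsOpen O) (hf : Harm f O) (v : E d) :
    Harm (fun y => fderiv ℝ f y v) O := by
  intro x hx
  refine ⟨contDiffAt_fderiv_apply (hf x hx).1 v, ?_⟩
  have h : lap f =ᶠ[𝓝 x] fun _ => 0 := by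
    filter_upwards [hO.mem_nhds hx] with y hy
    exact (hf y hy).2
  rw [calc_lap_fderiv ((hf x hx).1.of_le calc_le3), h.fderiv_eq]
  simp

/-- Derivatives of harmonic functions are harmonic. -/
theorem Harm.fderiv {O : Set (E d)} (hO : IsOpen O) (hf : Harm f O) (v : E d) :
    Harm (fun y => fderiv ℝ f y v) O := by
  exact calc_harm hO hf v

end Vale.Agent.P098
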