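import Vale.Agent.P098.K.Lip
import Vale.Agent.P098.K.Calc

/-!
# P098 K/Ibp  (helper names start with ibp_)

Integration by parts.  `LipschitzWith.integral_lineDeriv_mul_eq` with the constant function `1`, `DifferentiableAt.lineDeriv_eq_fderiv` a.e.
`ibp_mul`: apply `ibp0` to `f * g` (`loc_mul`, `lip_of_loc`; to get a.e. differentiability of `f` on the ball multiply by `exists_cutoff`).
-/

set_option maxSynthPendingDepth 3

open MeasureTheory Filter Topology Set Metric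
open scoped ContDiff RealInnerProductSpace NNReal

noncomputable section

namespace Vale.Agent.P098

variable {d : ℕ}

variable {f g u v φ : E d → ℝ}

theorem ibp_zero {R : ℝ} (h0 : ∀ x, R ≤ ‖x‖ → g x = 0) {x : E d} (hx : R < ‖x‖) :
    fderiv ℝ g x = 0 := by
  have h : g =ᶠ[𝓝 x] fun _ => 0 := by
    filter_upwards [(isOpen_lt continuous_const continuous_norm).mem_nhds hx] with y hy
    exact h0 y (le_of_lt hy)
  rw [h.fderiv_eq, fderiv_fun_const]
  rfl

theorem ibp_loc (hf : LocallyLipschitz f) (R : ℝ) :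
    ∃ F : E d → ℝ, Lip F ∧ ∀ x, ‖x‖ ≤ R → F =ᶠ[𝓝 x] f := by
  obtain ⟨χ, R', h1, -, -, h4, h5⟩ := exists_cutoff (d := d) (R + 1)
  refine ⟨fun x => f x * χ x, lip_of_loc (loc_mul hf (h1.of_le (by simp)).locallyLipschitz)
    (R := R') fun x hx => by rw [h5 x hx, mul_zero], fun x hx => ?_⟩
  have : x ∈ {y : E d | ‖y‖ < R + 1} := lt_of_le_of_lt hx (lt_add_one R)
  filter_upwards [(isOpen_lt continuous_norm continuous_const).mem_nhds this] with y hy
  rw [h4 y (le_of_lt hy), mul_one]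

theorem ibp_bd (hf : Continuous f) (R : ℝ) : ∃ C, ∀ x, ‖x‖ ≤ R → |f x| ≤ C := by
  obtain ⟨C, hC⟩ := (isCompact_closedBall (0 : E d) R).exists_bound_of_continuousOn hf.continuousOn
  exact ⟨C, fun x hx => hC x (mem_closedBall_zero_iff.2 hx)⟩

theorem ibp_dbd (hf : LocallyLipschitz f) (R : ℝ) (w : E d) :
    ∃ C, ∀ x, ‖x‖ ≤ R → |fderiv ℝ f x w| ≤ C := by
  obtain ⟨F, hF, h⟩ := ibp_loc hf R
  obtain ⟨C, -, hC, -⟩ := hF.bdd
  refine ⟨C * ‖w‖, fun x hx => ?_⟩
  rw [← (h x hx).fderiv_eq]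
  exact ((fderiv ℝ F x).le_opNorm w).trans (mul_le_mul_of_nonneg_right (hC x) (norm_nonneg w))

theorem ibp_int (hf : Measurable f) (hg : Measurable g) {R : ℝ}
    (h1 : ∃ C, ∀ x, ‖x‖ ≤ R → |f x| ≤ C) (h2 : ∃ C, ∀ x, ‖x‖ ≤ R → |g x| ≤ C)
    (h0 : ∀ x, R < ‖x‖ → g x = 0) : Integrable fun x => f x * g x := by
  obtain ⟨C, h1⟩ := h1
  obtain ⟨C', h2⟩ := h2
  refine integrable_of_bdd (hf.mul hg).aestronglyMeasurable (C := C * C') (R := R)
    (.of_forall fun x hx => ?_) (.of_forall fun x hx => by rw [h0 x hx, mul_zero])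
  rw [abs_mul]
  exact mul_le_mul (h1 x hx) (h2 x hx) (abs_nonneg _) ((abs_nonneg _).trans (h1 x hx))

theorem ibp_d (hv : ContDiff ℝ 2 v) (w : E d) : LocallyLipschitz fun y => fderiv ℝ v y w :=
  ((hv.fderiv_right (m := 1) (by norm_num)).clm_apply contDiff_const).locallyLipschitz

theorem ibp_lap_eq (hv : ContDiff ℝ 2 v) (x : E d) :
    lap v x = ∑ i, fderiv ℝ (fun y => fderiv ℝ v y (bv i)) x (bv i) := by
  unfold lap tr
  exact Finset.sum_congr rfl fun _ _ => D2_apply hv.contDiffAt _ _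

theorem ibp0 (hg : Lip g) {R : ℝ} (h0 : ∀ x, R ≤ ‖x‖ → g x = 0) (w : E d) :
    Integrable (fun x => fderiv ℝ g x w) ∧ ∫ x, fderiv ℝ g x w = 0 := by
  obtain ⟨C, hC⟩ := ibp_dbd hg.loc R w
  refine ⟨integrable_of_bdd (measurable_fderiv_apply_const ℝ g w).aestronglyMeasurable
    (.of_forall hC) (.of_forall fun x hx => by rw [ibp_zero h0 hx]; rfl), ?_⟩
  have hd := hg.ae_diff
  obtain ⟨L, hL⟩ := hg
  have h := (LipschitzWith.const (α := E d) (1 : ℝ)).integral_lineDeriv_mul_eq (μ := volume) hL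
    (compact_of_radius h0) (-w)
  have e : ∀ x : E d, lineDeriv ℝ (fun _ : E d => (1 : ℝ)) x (-w) = 0 := fun x => by
    simp [lineDeriv]
  simp only [e, zero_mul, integral_zero, neg_neg, mul_one] at h
  rw [h]
  refine integral_congr_ae ?_
  filter_upwards [hd] with x hx
  exact hx.lineDeriv_eq_fderiv.symm
theorem loc_ae_diff (hf : LocallyLipschitz f) : ∀ᵐ x, DifferentiableAt ℝ f x := by
  have h : ∀ n : ℕ, ∀ᵐ x : E d, ‖x‖ ≤ n → DifferentiableAt ℝ f x := fun n => by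
    obtain ⟨F, hF, h⟩ := ibp_loc hf n
    filter_upwards [hF.ae_diff] with x hx hn
    exact (h x hn).differentiableAt_iff.1 hx
  filter_upwards [ae_all_iff.2 h] with x hx
  exact hx _ (Nat.le_ceil _)
theorem ibp_mul (hf : LocallyLipschitz f) (hg : LocallyLipschitz g) {R : ℝ}
    (h0 : ∀ x, R ≤ ‖x‖ → g x = 0) (w : E d) :
    Integrable (fun x => fderiv ℝ f x w * g x) ∧ Integrable (fun x => f x * fderiv ℝ g x w) ∧
      ∫ x, fderiv ℝ f x w * g x = -∫ x, f x * fderiv ℝ g x w := by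
  have i1 : Integrable fun x => fderiv ℝ f x w * g x :=
    ibp_int (measurable_fderiv_apply_const ℝ f w) hg.continuous.measurable (ibp_dbd hf R w)
      (ibp_bd hg.continuous R) fun x hx => h0 x hx.le
  have i2 : Integrable fun x => f x * fderiv ℝ g x w :=
    ibp_int hf.continuous.measurable (measurable_fderiv_apply_const ℝ g w) (ibp_bd hf.continuous R)
      (ibp_dbd hg R w) fun x hx => by rw [ibp_zero h0 hx]; rfl
  refine ⟨i1, i2, ?_⟩
  have h1 : ∀ x, R ≤ ‖x‖ → f x * g x = 0 := fun x hx => by rw [h0 x hx, mul_zero]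
  have h := (ibp0 (lip_of_loc (loc_mul hf hg) h1) h1 w).2
  rw [eq_neg_iff_add_eq_zero, ← integral_add i1 i2, ← h]
  refine integral_congr_ae ?_
  filter_upwards [loc_ae_diff hf, loc_ae_diff hg] with x hx hy
  rw [fderiv_fun_mul hx hy]
  simp only [add_apply, smul_apply, smul_eq_mul]
  ring
theorem ibp_lap (hv : ContDiff ℝ 2 v) (hg : Lip g) {R : ℝ} (h0 : ∀ x, R ≤ ‖x‖ → g x = 0) :
    Integrable (fun x => lap v x * g x) ∧ ∫ x, dot v g x = -∫ x, lap v x * g x := by
  have h := fun i => ibp_mul (ibp_d hv (bv i)) hg.loc h0 (bv i)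
  simp only [ibp_lap_eq hv, Finset.sum_mul, dot]
  refine ⟨integrable_finsetSum _ fun i _ => (h i).1, ?_⟩
  rw [integral_finsetSum _ fun i _ => (h i).1, integral_finsetSum _ fun i _ => (h i).2.1,
    ← Finset.sum_neg_distrib]
  exact Finset.sum_congr rfl fun i _ => by rw [(h i).2.2, neg_neg]
theorem ibp_test (hu : LocallyLipschitz u) (hφ : ContDiff ℝ 2 φ) (hc : HasCompactSupport φ) :
    ∫ x, lap φ x * u x = -∫ x, dot u φ x := by
  obtain ⟨R, hR⟩ := exists_radius hc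
  have h := fun i => ibp_mul hu (ibp_d hφ (bv i)) (R := R + 1)
    (fun x hx => by rw [ibp_zero hR (lt_of_lt_of_le (lt_add_one R) hx)]; rfl) (bv i)
  simp only [mul_comm _ (u _)]
  simp only [ibp_lap_eq hφ, Finset.mul_sum, dot]
  rw [integral_finsetSum _ fun i _ => (h i).1, integral_finsetSum _ fun i _ => (h i).2.1,
    ← Finset.sum_neg_distrib]
  exact Finset.sum_congr rfl fun i _ => by rw [(h i).2.2, neg_neg]
theorem ibp_green (hu : ContDiff ℝ 2 u) (hφ : ContDiff ℝ 2 φ) (hc : HasCompactSupport φ) :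
    ∫ x, lap φ x * u x = ∫ x, φ x * lap u x := by
  obtain ⟨R, hR⟩ := exists_radius hc
  rw [ibp_test (hu.of_le (by norm_num)).locallyLipschitz hφ hc,
    (ibp_lap hu (lip_of_loc (hφ.of_le (by norm_num)).locallyLipschitz hR) hR).2, neg_neg]
  simp only [mul_comm]
/-- The divergence of `g x • x`. -/
theorem ibp_euler (hg : LocallyLipschitz g) {R : ℝ} (h0 : ∀ x, R ≤ ‖x‖ → g x = 0) :
    Integrable (fun x => fderiv ℝ g x x) ∧ ∫ x, fderiv ℝ g x x = -(d * ∫ x, g x) := by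
  have h := fun i : Fin d => ibp_mul (f := fun y => ⟪bv i, y⟫)
    ((contDiff_inner' (bv i)).of_le (by simp)).locallyLipschitz hg h0 (bv i)
  have e : ∀ x : E d, fderiv ℝ g x x = ∑ i, ⟪bv i, x⟫ * fderiv ℝ g x (bv i) := fun x => by
    rw [apply_eq_sum]
    exact Finset.sum_congr rfl fun i _ => by rw [real_inner_comm, inner_bv]
  simp only [fderiv_inner, innerSL_apply_apply, real_inner_self_eq_norm_sq, norm_bv, one_pow,
    one_mul] at h
  simp only [e]
  refine ⟨integrable_finsetSum _ fun i _ => (h i).2.1, ?_⟩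
  rw [integral_finsetSum _ fun i _ => (h i).2.1,
    Finset.sum_congr rfl fun i _ => (neg_eq_iff_eq_neg.2 (h i).2.2).symm.trans rfl]
  simp

end Vale.Agent.P098
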