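import Vale.Agent.P098.K.Av
import Vale.Agent.P098.K.Ibp

/-!
# P098 K/Weyl  (helper names start with weyl_)

Weyl's lemma and the gradient estimate.  For `closedBall x₀ (2 r₀) ⊆ O`, `x ∈ ball x₀ r₀`, `0 < r ≤ r₀`: `av ρ u x` has derivative zero (`Mol.deriv`, `av_lap_test`, test function `z ↦ Ψ (r⁻¹ • (z - x))`),
so `av ρ u x r₀ = u x` (`Mol.tendsto`); `av_contDiff`, `av_lap`.  `harm_est`: replace `h` by `χ * h` with a smooth bump `χ = 1` on `closedBall x (3 r / 4)` supported in `ball x r` (globally smooth),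
`ibp_green` gives the weak equation on `ball x (3 r / 4)`, then `h = av ρ (χ h) · (r / 4)` near `x`, `av_fderiv`, `abs_av_le` (`|fderiv ρ y v| ≤ ‖fderiv ρ y‖ ‖v‖`).
-/

set_option maxSynthPendingDepth 3

open MeasureTheory Filter Topology Set Metric
open scoped ContDiff RealInnerProductSpace NNReal

noncomputable section

namespace Vale.Agent.P098

variable {d : ℕ}

theorem weyl_test {Ψ : E d → ℝ} (hΨ : ContDiff ℝ ∞ Ψ) (hz : ∀ y, 1 ≤ ‖y‖ → Ψ y = 0) (x : E d)
    {s : ℝ} (hs : 0 < s) :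
    ContDiff ℝ ∞ (fun z => Ψ (s⁻¹ • (z - x))) ∧ HasCompactSupport (fun z => Ψ (s⁻¹ • (z - x))) ∧
      tsupport (fun z => Ψ (s⁻¹ • (z - x))) ⊆ closedBall x s := by
  have h3 : tsupport (fun z => Ψ (s⁻¹ • (z - x))) ⊆ closedBall x s := by
    refine closure_minimal ?_ isClosed_closedBall
    intro z hz'
    by_contra hc
    apply hz'
    apply hz
    rw [mem_closedBall, dist_eq_norm, not_le] at hc
    rw [norm_smul, Real.norm_eq_abs, abs_of_pos (inv_pos.2 hs), ← div_eq_inv_mul, le_div_iff₀ hs]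
    linarith
  refine ⟨hΨ.comp ((contDiff_id.sub contDiff_const).const_smul _), ?_, h3⟩
  exact (isCompact_closedBall x s).of_isClosed_subset (isClosed_tsupport _) h3

theorem weyl_cs {Ψ : E d → ℝ} (hz : ∀ y, 1 ≤ ‖y‖ → Ψ y = 0) : HasCompactSupport Ψ :=
  compact_of_radius hz

theorem weyl_zero {Ψ u : E d → ℝ} (hΨ : ContDiff ℝ ∞ Ψ) (hz : ∀ y, 1 ≤ ‖y‖ → Ψ y = 0)
    {O : Set (E d)}
    (hw : ∀ φ : E d → ℝ, ContDiff ℝ ∞ φ → HasCompactSupport φ → tsupport φ ⊆ O →
      ∫ x, lap φ x * u x = 0) {x : E d} {s : ℝ} (hs : 0 < s) (hO : closedBall x s ⊆ O) :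
    av (lap Ψ) u x s = 0 := by
  obtain ⟨h1, h2, h3⟩ := weyl_test hΨ hz x hs
  rw [av_lap_test Ψ u x hs, hw _ h1 h2 (h3.trans hO), mul_zero]

theorem weyl_av {ρ Ψ u : E d → ℝ} {c : ℝ} (h : Mol ρ Ψ c) (hu : Continuous u) {O : Set (E d)}
    (hw : ∀ φ : E d → ℝ, ContDiff ℝ ∞ φ → HasCompactSupport φ → tsupport φ ⊆ O →
      ∫ x, lap φ x * u x = 0) {x : E d} {r : ℝ} (hr : 0 < r) (hO : closedBall x r ⊆ O) :
    av ρ u x r = u x := by
  have hli : LocallyIntegrable u := hu.locallyIntegrable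
  have hd : ∀ s, 0 < s → s ≤ r → HasDerivAt (av ρ u x) 0 s := by
    intro s hs hsr
    have := h.deriv hli x hs
    rw [weyl_zero h.sΨ (fun y hy => (h.z y hy).2) hw hs
      ((closedBall_subset_closedBall hsr).trans hO), zero_div] at this
    exact this
  have hc : ∀ s, 0 < s → s < r → av ρ u x s = av ρ u x r := by
    intro s hs hsr
    obtain ⟨ξ, -, hξ⟩ := exists_hasDerivAt_eq_slope (av ρ u x) (fun _ => 0) hsr
      (fun t ht => (hd t (hs.trans_le ht.1) ht.2).continuousAt.continuousWithinAt)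
      (fun t ht => hd t (hs.trans ht.1) ht.2.le)
    have hne : r - s ≠ 0 := by linarith
    rw [eq_div_iff hne] at hξ
    linarith
  have he : (fun _ : ℝ => av ρ u x r) =ᶠ[𝓝[>] 0] av ρ u x := by
    filter_upwards [Ioo_mem_nhdsGT hr] with s hs
    exact (hc s hs.1 hs.2).symm
  exact tendsto_nhds_unique (tendsto_const_nhds.congr' he) (h.tendsto hu x)

theorem weyl {u : E d → ℝ} (hu : Continuous u) {O : Set (E d)} (hO : IsOpen O)
    (hw : ∀ φ : E d → ℝ, ContDiff ℝ ∞ φ → HasCompactSupport φ → tsupport φ ⊆ O →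
      ∫ x, lap φ x * u x = 0) : Harm u O := by
  obtain ⟨ρ, Ψ, c, h⟩ := exists_mol (d := d)
  have hli : LocallyIntegrable u := hu.locallyIntegrable
  have hz : ∀ y, 1 ≤ ‖y‖ → ρ y = 0 := fun y hy => (h.z y hy).1
  intro x₀ hx₀
  obtain ⟨ε, hε, hb⟩ := Metric.isOpen_iff.1 hO x₀ hx₀
  have hr : 0 < ε / 3 := by positivity
  have hsub : ∀ x ∈ ball x₀ (ε / 3), closedBall x (ε / 3) ⊆ O := by
    intro x hx
    refine Subset.trans ?_ hb
    intro z hz
    rw [mem_ball] at hx ⊢
    rw [mem_closedBall] at hz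
    linarith [dist_triangle z x x₀]
  have he : u =ᶠ[𝓝 x₀] fun x => av ρ u x (ε / 3) := by
    filter_upwards [ball_mem_nhds x₀ hr] with x hx
    exact (weyl_av h hu hw hr (hsub x hx)).symm
  refine ⟨((av_contDiff h.sρ (weyl_cs hz) hli hr).contDiffAt).congr_of_eventuallyEq he, ?_⟩
  rw [lap_congr he, av_lap h.sρ (weyl_cs hz) hli hr,
    weyl_zero h.sρ hz hw hr (hsub x₀ (mem_ball_self hr)), zero_div]

theorem harm_est (d : ℕ) : ∃ C : ℝ, 1 ≤ C ∧ ∀ (h : E d → ℝ) (x : E d) (r M : ℝ), 0 < r →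
    Harm h (ball x r) → (∀ y ∈ ball x r, |h y| ≤ M) → ‖fderiv ℝ h x‖ ≤ C * M / r := by
  obtain ⟨ρ, Ψ, c, hm⟩ := exists_mol (d := d)
  have hz : ∀ y, 1 ≤ ‖y‖ → ρ y = 0 := fun y hy => (hm.z y hy).1
  have hz' : ∀ y, 1 ≤ ‖y‖ → fderiv ℝ ρ y = 0 := by
    intro y hy
    have : IsLocalMin ρ y := Eventually.of_forall fun z => by rw [hz y hy]; exact hm.ρ0 z
    exact this.fderiv_eq_zero
  have hcf : Continuous (fderiv ℝ ρ) := hm.sρ.continuous_fderiv (by simp)
  have hint : Integrable fun y => ‖fderiv ℝ ρ y‖ := by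
    refine hcf.norm.integrable_of_hasCompactSupport (compact_of_radius (R := 1) ?_)
    intro y hy
    rw [hz' y hy, norm_zero]
  set K := ∫ y, ‖fderiv ℝ ρ y‖ with hK
  have hK0 : 0 ≤ K := integral_nonneg fun y => norm_nonneg _
  refine ⟨4 * K + 1, by linarith, ?_⟩
  intro h x r M hr hh hM
  have hM0 : 0 ≤ M := (abs_nonneg _).trans (hM x (mem_ball_self hr))
  let χ : ContDiffBump x := ⟨3 * r / 4, 7 * r / 8, by positivity, by linarith⟩
  set g : E d → ℝ := fun y => χ y * h y with hg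
  have hgs : ContDiff ℝ ∞ g := by
    rw [contDiff_iff_contDiffAt]
    intro y
    by_cases hy : y ∈ ball x r
    · exact χ.contDiff.contDiffAt.mul (hh y hy).1
    · have he : g =ᶠ[𝓝 y] fun _ => 0 := by
        have hy' : y ∈ (closedBall x (7 * r / 8))ᶜ := by
          rw [mem_ball, not_lt] at hy
          rw [mem_compl_iff, mem_closedBall, not_le]
          linarith
        filter_upwards [isClosed_closedBall.isOpen_compl.mem_nhds hy'] with z hz
        rw [mem_compl_iff, mem_closedBall, not_le] at hz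
        have : χ z = 0 := χ.zero_of_le_dist hz.le
        simp only [hg, this, zero_mul]
      exact contDiffAt_const.congr_of_eventuallyEq he
  have hgh : ∀ y ∈ ball x (3 * r / 4), g y = h y := by
    intro y hy
    have : χ y = 1 := χ.one_of_mem_closedBall (ball_subset_closedBall hy)
    simp only [hg, this, one_mul]
  have hw : ∀ φ : E d → ℝ, ContDiff ℝ ∞ φ → HasCompactSupport φ →
      tsupport φ ⊆ ball x (3 * r / 4) → ∫ y, lap φ y * g y = 0 := by
    intro φ h1 h2 h3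
    have h2i : (2 : WithTop ℕ∞) ≤ ∞ := WithTop.coe_le_coe.2 (le_top : (2 : ℕ∞) ≤ ⊤)
    rw [ibp_green (hgs.of_le h2i) (h1.of_le h2i) h2]
    have : (fun y => φ y * lap g y) = fun _ => 0 := by
      funext y
      by_cases hy : y ∈ ball x (3 * r / 4)
      · have he : g =ᶠ[𝓝 y] h := by
          filter_upwards [isOpen_ball.mem_nhds hy] with z hz using hgh z hz
        rw [lap_congr he, (hh y (ball_subset_ball (by linarith) hy)).2, mul_zero]
      · rw [image_eq_zero_of_notMem_tsupport fun hy' => hy (h3 hy'), zero_mul]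
    rw [this, integral_zero]
  have hr4 : 0 < r / 4 := by positivity
  have he : h =ᶠ[𝓝 x] fun y => av ρ g y (r / 4) := by
    filter_upwards [ball_mem_nhds x hr4] with y hy
    rw [weyl_av hm hgs.continuous hw hr4, hgh y (ball_subset_ball (by linarith) hy)]
    intro z hz
    rw [mem_ball] at hy ⊢
    rw [mem_closedBall] at hz
    linarith [dist_triangle z y x]
  rw [he.fderiv_eq]
  refine ContinuousLinearMap.opNorm_le_bound _ (by positivity) fun v => ?_
  rw [av_fderiv hm.sρ (weyl_cs hz) hgs.continuous.locallyIntegrable hr4 x v, Real.norm_eq_abs,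
    abs_div, abs_neg, abs_of_pos hr4]
  have h1 : |av (fun y => fderiv ℝ ρ y v) g x (r / 4)| ≤ (∫ y, |fderiv ℝ ρ y v|) * M := by
    refine abs_av_le (hcf.clm_apply continuous_const) (fun y hy => by rw [hz' y hy]; rfl) hr4 ?_
    intro y hy
    rw [← dist_eq_norm] at hy
    rw [hgh y (by rw [mem_ball]; linarith)]
    exact hM y (by rw [mem_ball]; linarith)
  have h2 : ∫ y, |fderiv ℝ ρ y v| ≤ K * ‖v‖ := by
    rw [hK, ← integral_mul_const]
    refine integral_mono_of_nonneg (Eventually.of_forall fun y => abs_nonneg _)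
      (hint.mul_const _) (Eventually.of_forall fun y => ?_)
    exact (fderiv ℝ ρ y).le_opNorm v
  have h3 : |av (fun y => fderiv ℝ ρ y v) g x (r / 4)| ≤ K * ‖v‖ * M :=
    h1.trans (mul_le_mul_of_nonneg_right h2 hM0)
  rw [div_le_iff₀ hr4]
  have h4 : (4 * K + 1) * M / r * ‖v‖ * (r / 4) = K * ‖v‖ * M + M * ‖v‖ / 4 := by
    field_simp
  rw [h4]
  have : 0 ≤ M * ‖v‖ / 4 := by positivity
  linarith

end Vale.Agent.P098
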