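import Vale.Agent.P098.K.Alg

/-!
# P098 K/Lip  (helper names start with lip_)

Lipschitz functions.  `LipschitzWith.ae_differentiableAt`, `norm_fderiv_le_of_lipschitz`, `LocallyLipschitzOn.exists_lipschitzOnWith_of_compact`, `ContDiff.locallyLipschitz`, `ContDiffBump`.
`lip_indicator`: a segment from a point of `D` to a point outside meets `frontier D` (`IsPreconnected.subset_of_closure_inter_subset`-type lemma or `isPreconnected_iff...`; alternatively
`infDist x (frontier D) ≤ dist x y`); take a Lipschitz constant on the compact set `D`.  `lip_of_dom` is the same argument: if the segment stays in `{u > 0}` use the mean value inequality, otherwise it contains a zero of `u`.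
`ae_fderiv_eq`: with `h = f - g`, at a zero of `h` where `max h 0` and `max (-h) 0` are differentiable both have a minimum (`IsLocalMin.fderiv_eq_zero`).
-/

set_option maxSynthPendingDepth 3

open MeasureTheory Filter Topology Set Metric
open scoped ContDiff RealInnerProductSpace NNReal

noncomputable section

namespace Vale.Agent.P098

variable {d : ℕ}

variable {f g u v : E d → ℝ}

theorem lip_le {L : ℝ≥0} (h : LipschitzWith L f) (x y : E d) : |f x - f y| ≤ L * ‖x - y‖ := by
  have := h.dist_le_mul x y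
  rwa [Real.dist_eq, dist_eq_norm] at this

theorem lip_mk {C : ℝ} (h : ∀ x y, |f x - f y| ≤ C * ‖x - y‖) : Lip f := by
  refine ⟨⟨|C|, abs_nonneg C⟩, LipschitzWith.of_dist_le_mul fun x y => ?_⟩
  rw [Real.dist_eq, dist_eq_norm]
  exact (h x y).trans (mul_le_mul_of_nonneg_right (le_abs_self C) (norm_nonneg _))

theorem lip_ind {D : Set (E d)} (hD : IsCompact D) (hf : LocallyLipschitz f)
    (h0 : ∀ x ∈ frontier D, f x = 0) : Lip (D.indicator f) := by
  obtain ⟨K, hK⟩ := (hf.locallyLipschitzOn (s := D)).exists_lipschitzOnWith_of_compact hD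
  have key : ∀ x y, x ∈ D → y ∉ D → |f x| ≤ K * ‖x - y‖ := by
    intro x y hx hy
    have hne : D ≠ univ := fun h => hy (h ▸ mem_univ y)
    obtain ⟨z, hz, hzd⟩ := exists_mem_frontier_infDist_compl_eq_dist hx hne
    have hzD : z ∈ D := hD.isClosed.frontier_subset hz
    have h1 := hK.dist_le_mul x hx z hzD
    rw [Real.dist_eq, h0 z hz, sub_zero, ← hzd] at h1
    have h2 : infDist x Dᶜ ≤ dist x y := infDist_le_dist_of_mem hy
    rw [dist_eq_norm] at h2
    exact h1.trans (mul_le_mul_of_nonneg_left h2 K.coe_nonneg)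
  refine lip_mk (C := K) fun x y => ?_
  by_cases hx : x ∈ D <;> by_cases hy : y ∈ D
  · rw [indicator_of_mem hx, indicator_of_mem hy]
    have := hK.dist_le_mul x hx y hy
    rwa [Real.dist_eq, dist_eq_norm] at this
  · rw [indicator_of_mem hx, indicator_of_notMem hy, sub_zero]
    exact key x y hx hy
  · rw [indicator_of_notMem hx, indicator_of_mem hy, zero_sub, abs_neg, norm_sub_rev]
    exact key y x hy hx
  · rw [indicator_of_notMem hx, indicator_of_notMem hy, sub_zero, abs_zero]
    positivity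

theorem lip_pt_le {C : ℝ} (h : ∀ x, ∀ᶠ y in 𝓝 x, |f y - f x| ≤ C * ‖y - x‖) (x y : E d) :
    f y - f x ≤ C * ‖y - x‖ := by
  have hc : Continuous f := by
    refine continuous_iff_continuousAt.2 fun z => ?_
    have h1 : Tendsto (fun w : E d => C * ‖w - z‖) (𝓝 z) (𝓝 0) := by
      have : Continuous fun w : E d => C * ‖w - z‖ := by fun_prop
      simpa using this.tendsto z
    rw [ContinuousAt, tendsto_iff_norm_sub_tendsto_zero]
    refine squeeze_zero' (Eventually.of_forall fun w => norm_nonneg _) ?_ h1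
    filter_upwards [h z] with w hw
    rwa [Real.norm_eq_abs]
  have hγ : Continuous fun t : ℝ => x + t • (y - x) := by fun_prop
  have main := image_le_of_liminf_slope_right_le_deriv_boundary
    (f := fun t : ℝ => f (x + t • (y - x))) (a := 0) (b := 1) (hc.comp hγ).continuousOn
    (B := fun t => f x + C * ‖y - x‖ * t) (B' := fun _ => C * ‖y - x‖) (by simp) (by fun_prop)
    (fun t _ => by
      have := ((hasDerivAt_id t).const_mul (C * ‖y - x‖)).const_add (f x)
      simpa using this.hasDerivWithinAt)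
    (fun t _ r hr => by
      refine Eventually.frequently ?_
      have h1 := (hγ.tendsto t).eventually (h (x + t • (y - x)))
      filter_upwards [nhdsWithin_le_nhds h1, self_mem_nhdsWithin] with z hz hzt
      have hzt' : 0 < z - t := sub_pos.2 hzt
      have e : x + z • (y - x) - (x + t • (y - x)) = (z - t) • (y - x) := by
        rw [sub_smul]; abel
      rw [e, norm_smul, Real.norm_eq_abs, abs_of_pos hzt'] at hz
      rw [slope_def_field, div_lt_iff₀ hzt']
      have h2 := (le_abs_self _).trans hz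
      have h3 : C * ‖y - x‖ * (z - t) < r * (z - t) := mul_lt_mul_of_pos_right hr hzt'
      have h4 : C * ((z - t) * ‖y - x‖) = C * ‖y - x‖ * (z - t) := by ring
      linarith)
    (x := 1) ⟨zero_le_one, le_rfl⟩
  simp only [one_smul, add_sub_cancel, mul_one] at main
  linarith

theorem lip_pt {C : ℝ} (h : ∀ x, ∀ᶠ y in 𝓝 x, |f y - f x| ≤ C * ‖y - x‖) : Lip f := by
  refine lip_mk (C := C) fun x y => abs_le.2 ⟨?_, lip_pt_le h y x⟩
  have := lip_pt_le h x y
  rw [norm_sub_rev] at this
  linarith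

theorem lip_max (hf : Lip f) (hg : Lip g) : Lip fun x => max (f x) (g x) := by
  obtain ⟨K, hK⟩ := hf
  obtain ⟨L, hL⟩ := hg
  exact ⟨_, hK.max hL⟩

theorem lip_min (hf : Lip f) (hg : Lip g) : Lip fun x => min (f x) (g x) := by
  obtain ⟨K, hK⟩ := hf
  obtain ⟨L, hL⟩ := hg
  exact ⟨_, hK.min hL⟩

theorem lip_ev {R : ℝ} (h : ∀ x, R ≤ ‖x‖ → v x = u x) {x : E d} (hx : R < ‖x‖) :
    v =ᶠ[𝓝 x] u := by
  have : ∀ᶠ y in 𝓝 x, R < ‖y‖ := continuous_norm.continuousAt.eventually (lt_mem_nhds hx)
  filter_upwards [this] with y hy using h y hy.le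

theorem Lip.continuous (h : Lip f) : Continuous f := by
  obtain ⟨L, hL⟩ := h
  exact hL.continuous

theorem Lip.loc (h : Lip f) : LocallyLipschitz f := by
  obtain ⟨L, hL⟩ := h
  exact hL.locallyLipschitz

theorem Lip.ae_diff (h : Lip f) : ∀ᵐ x, DifferentiableAt ℝ f x := by
  obtain ⟨L, hL⟩ := h
  exact hL.ae_differentiableAt

theorem Lip.bdd (h : Lip f) : ∃ C : ℝ, 0 ≤ C ∧ (∀ x, ‖fderiv ℝ f x‖ ≤ C) ∧
    ∀ x y, |f x - f y| ≤ C * ‖x - y‖ := by
  obtain ⟨L, hL⟩ := h
  exact ⟨L, L.coe_nonneg, fun x => norm_fderiv_le_of_lipschitz ℝ hL, lip_le hL⟩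

theorem lip_of_le {C : ℝ} (h : ∀ x y, |f x - f y| ≤ C * ‖x - y‖) : Lip f := by
  exact lip_mk h

theorem lip_const (c : ℝ) : Lip fun _ : E d => c := by
  exact ⟨0, LipschitzWith.const c⟩

theorem Lip.add (hf : Lip f) (hg : Lip g) : Lip fun x => f x + g x := by
  obtain ⟨K, hK⟩ := hf
  obtain ⟨L, hL⟩ := hg
  exact ⟨_, hK.add hL⟩

theorem Lip.sub (hf : Lip f) (hg : Lip g) : Lip fun x => f x - g x := by
  obtain ⟨K, hK⟩ := hf
  obtain ⟨L, hL⟩ := hg
  exact ⟨_, hK.sub hL⟩

theorem Lip.const_mul (hf : Lip f) (c : ℝ) : Lip fun x => c * f x := by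
  obtain ⟨K, hK⟩ := hf
  refine lip_mk (C := |c| * K) fun x y => ?_
  rw [← mul_sub, abs_mul, mul_assoc]
  exact mul_le_mul_of_nonneg_left (lip_le hK x y) (abs_nonneg c)

theorem Lip.max (hf : Lip f) (hg : Lip g) : Lip fun x => max (f x) (g x) := by
  exact lip_max hf hg

theorem Lip.min (hf : Lip f) (hg : Lip g) : Lip fun x => min (f x) (g x) := by
  exact lip_min hf hg

theorem lip_of_loc (hf : LocallyLipschitz f) {R : ℝ} (h0 : ∀ x, R ≤ ‖x‖ → f x = 0) : Lip f := by
  have h1 : Lip ((closedBall (0 : E d) R).indicator f) := by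
    refine lip_ind (isCompact_closedBall 0 R) hf fun x hx => h0 x ?_
    have := frontier_closedBall_subset_sphere hx
    rw [mem_sphere_zero_iff_norm] at this
    exact this.ge
  have h2 : (closedBall (0 : E d) R).indicator f = f := by
    funext x
    by_cases hx : x ∈ closedBall (0 : E d) R
    · exact indicator_of_mem hx f
    · rw [indicator_of_notMem hx, h0 x]
      rw [mem_closedBall_zero_iff, not_le] at hx
      exact hx.le
  rwa [h2] at h1

theorem loc_mul (hf : LocallyLipschitz f) (hg : LocallyLipschitz g) :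
    LocallyLipschitz fun x => f x * g x := by
  have h1 : ContDiff ℝ 1 fun p : ℝ × ℝ => p.1 * p.2 := contDiff_fst.mul contDiff_snd
  exact h1.locallyLipschitz.comp (hf.prodMk hg)

theorem lip_indicator {D : Set (E d)} (hD : IsCompact D) (hf : LocallyLipschitz f)
    (h0 : ∀ x ∈ frontier D, f x = 0) : Lip (D.indicator f) := by
  exact lip_ind hD hf h0

/-- A function dominated by `u` with bounded local Lipschitz constants on `{u > 0}`. -/
theorem lip_of_dom (hu : Lip u) (hn : ∀ x, 0 ≤ u x) {C : ℝ} (h1 : ∀ x, |f x| ≤ C * u x)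
    (h2 : ∀ x, 0 < u x → ∀ᶠ y in 𝓝 x, |f y - f x| ≤ C * ‖y - x‖) : Lip f := by
  obtain ⟨L, hL⟩ := hu
  refine lip_pt (C := |C| + |C| * L) fun x => ?_
  have hCL : 0 ≤ |C| * L := by positivity
  rcases (hn x).lt_or_eq with hx | hx
  · filter_upwards [h2 x hx] with y hy
    refine hy.trans (mul_le_mul_of_nonneg_right ?_ (norm_nonneg _))
    linarith [le_abs_self C]
  · refine Eventually.of_forall fun y => ?_
    have hfx : f x = 0 := by
      have := h1 x
      rw [← hx, mul_zero] at this
      exact abs_nonpos_iff.1 this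
    have h3 := lip_le hL y x
    rw [← hx, sub_zero, abs_of_nonneg (hn y)] at h3
    rw [hfx, sub_zero]
    have h4 : C * u y ≤ |C| * u y := mul_le_mul_of_nonneg_right (le_abs_self C) (hn y)
    have h5 : |C| * u y ≤ |C| * (L * ‖y - x‖) := mul_le_mul_of_nonneg_left h3 (abs_nonneg C)
    have h6 : 0 ≤ |C| * ‖y - x‖ := by positivity
    have h7 : (|C| + |C| * L) * ‖y - x‖ = |C| * ‖y - x‖ + |C| * (L * ‖y - x‖) := by ring
    linarith [h1 y]

theorem exists_cutoff (R : ℝ) : ∃ (χ : E d → ℝ) (R' : ℝ), ContDiff ℝ ∞ χ ∧ HasCompactSupport χ ∧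
    (∀ x, 0 ≤ χ x ∧ χ x ≤ 1) ∧ (∀ x, ‖x‖ ≤ R → χ x = 1) ∧ ∀ x, R' ≤ ‖x‖ → χ x = 0 := by
  let b : ContDiffBump (0 : E d) := ⟨|R| + 1, |R| + 2, by positivity, by linarith⟩
  refine ⟨b, |R| + 2, b.contDiff, b.hasCompactSupport, fun x => ⟨b.nonneg, b.le_one⟩,
    fun x hx => ?_, fun x hx => ?_⟩
  · apply b.one_of_mem_closedBall
    rw [mem_closedBall_zero_iff]
    change ‖x‖ ≤ |R| + 1
    linarith [le_abs_self R]
  · apply b.zero_of_le_dist
    rw [dist_zero_right]
    exact hx

theorem exists_radius (hf : HasCompactSupport f) : ∃ R : ℝ, ∀ x, R ≤ ‖x‖ → f x = 0 := by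
  obtain ⟨R, hR⟩ := hf.isCompact.isBounded.subset_ball (0 : E d)
  refine ⟨R, fun x hx => ?_⟩
  by_contra hne
  have := hR (subset_tsupport f hne)
  rw [mem_ball_zero_iff] at this
  linarith

theorem compact_of_radius {R : ℝ} (h : ∀ x, R ≤ ‖x‖ → f x = 0) : HasCompactSupport f := by
  refine HasCompactSupport.intro (isCompact_closedBall (0 : E d) R) fun x hx => h x ?_
  rw [mem_closedBall_zero_iff, not_le] at hx
  exact hx.le

theorem ae_fderiv_eq (hf : Lip f) (hg : Lip g) :
    ∀ᵐ x, f x = g x → fderiv ℝ f x = fderiv ℝ g x := by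
  have hp : Lip fun x => max (f x - g x) 0 := lip_max (hf.sub hg) (lip_const 0)
  have hm : Lip fun x => min (f x - g x) 0 := lip_min (hf.sub hg) (lip_const 0)
  filter_upwards [hf.ae_diff, hg.ae_diff, hp.ae_diff, hm.ae_diff] with x h1 h2 h3 h4 hx
  have m1 : IsLocalMin (fun x => max (f x - g x) 0) x := by
    refine Eventually.of_forall fun y => ?_
    simp only [hx, sub_self, max_self]
    exact le_max_right _ _
  have m2 : IsLocalMax (fun x => min (f x - g x) 0) x := by
    refine Eventually.of_forall fun y => ?_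
    simp only [hx, sub_self, min_self]
    exact min_le_right _ _
  have e : f = fun y => g y + (max (f y - g y) 0 + min (f y - g y) 0) := by
    funext y
    rw [max_add_min]
    ring
  have d1 := h3.hasFDerivAt
  have d2 := h4.hasFDerivAt
  rw [m1.fderiv_eq_zero] at d1
  rw [m2.fderiv_eq_zero] at d2
  have d3 := h2.hasFDerivAt.fun_add (d1.fun_add d2)
  rw [← e, add_zero, add_zero] at d3
  exact d3.fderiv

theorem measurable_en (hu : Continuous u) : Measurable (en u) := by
  have h1 : Measurable fun x => ‖fderiv ℝ u x‖ ^ 2 := (measurable_fderiv ℝ u).norm.pow_const 2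
  have h2 : Measurable fun x => if 0 < u x then (1 : ℝ) else 0 :=
    Measurable.ite (measurableSet_lt measurable_const hu.measurable) measurable_const
      measurable_const
  exact h1.add h2

theorem en_nonneg (u : E d → ℝ) (x : E d) : 0 ≤ en u x := by
  unfold en
  split_ifs <;> positivity

theorem en_congr {x : E d} (h : u =ᶠ[𝓝 x] v) : en u x = en v x := by
  unfold en
  rw [h.fderiv_eq, h.eq_of_nhds]

theorem Lip.en_bdd (hu : Lip u) : ∃ C : ℝ, ∀ x, |en u x| ≤ C := by
  obtain ⟨C, hC, h1, -⟩ := hu.bdd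
  refine ⟨C ^ 2 + 1, fun x => ?_⟩
  rw [abs_of_nonneg (en_nonneg u x)]
  unfold en
  have h2 : ‖fderiv ℝ u x‖ ^ 2 ≤ C ^ 2 := pow_le_pow_left₀ (norm_nonneg _) (h1 x) 2
  split_ifs <;> linarith

theorem integrable_of_bdd (hf : AEStronglyMeasurable f volume) {C R : ℝ}
    (h1 : ∀ᵐ x, ‖x‖ ≤ R → |f x| ≤ C) (h0 : ∀ᵐ x, R < ‖x‖ → f x = 0) : Integrable f := by
  have hI : Integrable ((closedBall (0 : E d) R).indicator fun _ => C) := by
    refine IntegrableOn.integrable_indicator ?_ measurableSet_closedBall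
    exact integrableOn_const (measure_closedBall_lt_top.ne)
  refine hI.mono' hf ?_
  filter_upwards [h1, h0] with x a1 a0
  by_cases hx : x ∈ closedBall (0 : E d) R
  · rw [indicator_of_mem hx, Real.norm_eq_abs]
    exact a1 (mem_closedBall_zero_iff.1 hx)
  · rw [indicator_of_notMem hx]
    rw [mem_closedBall_zero_iff, not_le] at hx
    rw [a0 hx, norm_zero]

theorem integrable_en_sub (hu : Lip u) (hv : Lip v) {R : ℝ} (h : ∀ x, R ≤ ‖x‖ → v x = u x) :
    Integrable fun x => en v x - en u x := by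
  obtain ⟨A, hA⟩ := hu.en_bdd
  obtain ⟨B, hB⟩ := hv.en_bdd
  refine integrable_of_bdd (C := B + A) (R := R)
    ((measurable_en hv.continuous).sub (measurable_en hu.continuous)).aestronglyMeasurable
    (Eventually.of_forall fun x _ => ?_) (Eventually.of_forall fun x hx => ?_)
  · exact (abs_sub _ _).trans (add_le_add (hB x) (hA x))
  · rw [en_congr (lip_ev h hx), sub_self]

theorem integrable_dot (hu : LocallyLipschitz u) (hg : Lip g) {R : ℝ} (h : ∀ x, R ≤ ‖x‖ → g x = 0) :
    Integrable (dot u g) := by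
  obtain ⟨K, hK⟩ := (hu.locallyLipschitzOn (s := closedBall (0 : E d) (R + 1))
    ).exists_lipschitzOnWith_of_compact (isCompact_closedBall _ _)
  obtain ⟨C, hC, h1, -⟩ := hg.bdd
  refine integrable_of_bdd (C := K * C) (R := R) (measurable_dot u g).aestronglyMeasurable
    (Eventually.of_forall fun x hx => ?_) (Eventually.of_forall fun x hx => ?_)
  · have hn : closedBall (0 : E d) (R + 1) ∈ 𝓝 x :=
      closedBall_mem_nhds_of_mem (by rw [mem_ball_zero_iff]; linarith)
    exact (abs_dot_le u g x).trans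
      (mul_le_mul (norm_fderiv_le_of_lipschitzOn ℝ hn hK) (h1 x) (norm_nonneg _) K.coe_nonneg)
  · have h2 : g =ᶠ[𝓝 x] fun _ => 0 := lip_ev (u := fun _ => 0) h hx
    have h3 := abs_dot_le u g x
    rw [h2.fderiv_eq, fderiv_fun_const] at h3
    simpa using h3

end Vale.Agent.P098
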