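import Vale.Agent.P098.K.Calc
import Vale.Agent.P098.K.Lip

/-!
# P098 K/Moll  (helper names start with moll_)

The radial mollifier.  With `g = expNegInvGlue` (`expNegInvGlue.contDiff`, monotone, `deriv g t = g t / t ^ 2 > 0` for `t > 0`) put `Ψ x = c / 2 * g (1 - ‖x‖ ^ 2)`, `ρ x = c * deriv g (1 - ‖x‖ ^ 2)`, `c` normalising; `lap_comp`.
`scale_deriv`: `∫ φ x * f (x₀ + r • x) = r ^ (-d) ∫ φ (r⁻¹ • (z - x₀)) * f z` (`Measure.integral_comp_smul`, `integral_add_left_eq_self`), `hasDerivAt_integral_of_dominated_loc_of_deriv_le`.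
-/

set_option maxSynthPendingDepth 3

open MeasureTheory Filter Topology Set Metric
open scoped ContDiff RealInnerProductSpace NNReal

noncomputable section

namespace Vale.Agent.P098

variable {d : ℕ}

/-- The mollifier `ρ` and its potential `Ψ`. -/
structure Mol (ρ Ψ : E d → ℝ) (c : ℝ) : Prop where
  sρ : ContDiff ℝ ∞ ρ
  sΨ : ContDiff ℝ ∞ Ψ
  ρ0 : ∀ x, 0 ≤ ρ x
  Ψ0 : ∀ x, 0 ≤ Ψ x
  z : ∀ x, 1 ≤ ‖x‖ → ρ x = 0 ∧ Ψ x = 0
  one : ∫ x, ρ x = 1
  c0 : 0 < c
  low : ∀ x, ‖x‖ ≤ 1 / 2 → c ≤ ρ x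
  grad : ∀ x v, fderiv ℝ Ψ x v = -(ρ x * ⟪x, v⟫)
  lap : ∀ x, lap Ψ x = -(d * ρ x + fderiv ℝ ρ x x)
  rad : ∀ x v, ⟪x, v⟫ = 0 → fderiv ℝ ρ x v = 0

theorem moll_glue : ∃ G g g' : ℝ → ℝ, ContDiff ℝ ∞ G ∧ ContDiff ℝ ∞ g ∧
    (∀ t, HasDerivAt G (g t) t) ∧ (∀ t, HasDerivAt g (g' t) t) ∧ (∀ t, 0 ≤ G t) ∧ (∀ t, 0 ≤ g t) ∧
    (∀ t, t ≤ 0 → G t = 0 ∧ g t = 0) ∧ 0 < G (3 / 4) ∧ ∀ t, 3 / 4 ≤ t → t ≤ 1 → G (3 / 4) ≤ g t := by
  have sg : ContDiff ℝ ∞ fun t : ℝ => t⁻¹ ^ 2 * expNegInvGlue t := by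
    have h := expNegInvGlue.contDiff_polynomial_eval_inv_mul (n := ⊤) (Polynomial.X ^ 2)
    simp only [Polynomial.eval_X_pow] at h
    exact h
  refine ⟨expNegInvGlue, fun t => t⁻¹ ^ 2 * expNegInvGlue t, deriv _, expNegInvGlue.contDiff, sg,
    fun t => ?_, fun t => (sg.differentiable (by simp) t).hasDerivAt, expNegInvGlue.nonneg,
    fun t => mul_nonneg (sq_nonneg _) (expNegInvGlue.nonneg t), fun t ht => ?_,
    expNegInvGlue.pos_of_pos (by norm_num), fun t h1 h2 => ?_⟩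
  · simpa using expNegInvGlue.hasDerivAt_polynomial_eval_inv_mul 1 t
  · simp only [expNegInvGlue.zero_of_nonpos ht, mul_zero, and_self]
  · exact (expNegInvGlue.monotone h1).trans (le_mul_of_one_le_left (expNegInvGlue.nonneg t)
      (one_le_pow₀ ((one_le_inv₀ (by linarith)).2 h2)))

theorem moll_fd {g g' : ℝ → ℝ} (h : ∀ t, HasDerivAt g (g' t) t) (a : ℝ) (x v : E d) :
    fderiv ℝ (fun x : E d => a * g (1 - ‖x‖ ^ 2)) x v = a * (g' (1 - ‖x‖ ^ 2) * -(2 * ⟪x, v⟫)) := by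
  have h1 := ((h (1 - ‖x‖ ^ 2)).comp_hasFDerivAt x
    ((hasStrictFDerivAt_norm_sq x).hasFDerivAt.const_sub 1)).const_mul a
  have h2 : HasFDerivAt (fun x : E d => a * g (1 - ‖x‖ ^ 2)) _ x := h1
  rw [h2.fderiv]
  simp

theorem exists_mol : ∃ (ρ Ψ : E d → ℝ) (c : ℝ), Mol ρ Ψ c := by
  obtain ⟨G, g, g', sG, sg, dG, dg, G0, g0, z, low⟩ := moll_glue
  have sn : ContDiff ℝ ∞ fun x : E d => 1 - ‖x‖ ^ 2 := contDiff_const.sub (contDiff_norm_sq ℝ)
  have zn : ∀ x : E d, 1 ≤ ‖x‖ → 1 - ‖x‖ ^ 2 ≤ 0 := fun x hx =>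
    sub_nonpos.2 (one_le_pow₀ hx)
  have hI : 0 < ∫ x : E d, g (1 - ‖x‖ ^ 2) :=
    Continuous.integral_pos_of_hasCompactSupport_nonneg_nonzero (x := 0) (sg.comp sn).continuous
      (compact_of_radius fun x hx => (z _ (zn x hx)).2) (fun x => g0 _)
      (low.1.trans_le (low.2 _ (by norm_num) (by norm_num))).ne'
  obtain ⟨a, ha⟩ : ∃ a, a = (∫ x : E d, g (1 - ‖x‖ ^ 2))⁻¹ := ⟨_, rfl⟩
  have a0 : 0 < a := ha ▸ inv_pos.2 hI
  have dρ : ∀ x v : E d, fderiv ℝ (fun x : E d => a * g (1 - ‖x‖ ^ 2)) x v =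
      -(2 * a * g' (1 - ‖x‖ ^ 2) * ⟪x, v⟫) := fun x v => by
    rw [moll_fd dg]
    ring
  refine ⟨fun x => a * g (1 - ‖x‖ ^ 2), fun x => a / 2 * G (1 - ‖x‖ ^ 2), a * G (3 / 4),
    contDiff_const.mul (sg.comp sn), contDiff_const.mul (sG.comp sn),
    fun x => mul_nonneg a0.le (g0 _), fun x => mul_nonneg (by positivity) (G0 _), fun x hx => ?_, ?_,
    mul_pos a0 low.1, fun x hx => mul_le_mul_of_nonneg_left (low.2 _ ?_ ?_) a0.le, fun x v => ?_,
    fun x => ?_, fun x v hv => ?_⟩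
  · simp only [z _ (zn x hx), mul_zero, and_self]
  · rw [integral_const_mul, ha, inv_mul_cancel₀ hI.ne']
  · nlinarith [norm_nonneg x]
  · nlinarith [sq_nonneg ‖x‖]
  · rw [moll_fd dG]
    ring
  · have h1 : ∀ t, HasDerivAt (fun t => a / 2 * G (1 - t)) (-(a / 2 * g (1 - t))) t := fun t =>
      (((dG (1 - t)).comp t ((hasDerivAt_id' t).const_sub 1)).const_mul (a / 2)).congr_deriv
        (by ring)
    have h2 : ∀ t, HasDerivAt (fun t => -(a / 2 * g (1 - t))) (a / 2 * g' (1 - t)) t := fun t =>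
      (((dg (1 - t)).comp t ((hasDerivAt_id' t).const_sub 1)).const_mul (a / 2)).neg.congr_deriv
        (by ring)
    have h3 : ‖fderiv ℝ (fun y : E d => ‖y‖ ^ 2) x‖ = 2 * ‖x‖ := by
      rw [(hasStrictFDerivAt_norm_sq x).hasFDerivAt.fderiv, ← Nat.cast_smul_eq_nsmul ℝ, norm_smul,
        innerSL_apply_norm, Nat.cast_ofNat, Real.norm_two]
    rw [lap_comp h1 h2 (contDiff_norm_sq ℝ).contDiffAt, lap_normSq, h3, dρ,
      real_inner_self_eq_norm_sq]
    ring
  · rw [dρ, hv, mul_zero, neg_zero]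


/-- Averages. -/
def av (φ f : E d → ℝ) (x : E d) (r : ℝ) : ℝ := ∫ y, φ y * f (x + r • y)

theorem av_eq (φ f : E d → ℝ) (x : E d) {r : ℝ} (hr : 0 < r) :
    av φ f x r = (r ^ d)⁻¹ * ∫ z, φ (r⁻¹ • (z - x)) * f z := by
  have h := Measure.integral_comp_smul (volume : Measure (E d))
    (fun y => φ (r⁻¹ • (x + y - x)) * f (x + y)) r
  rw [integral_add_left_eq_self (fun z => φ (r⁻¹ • (z - x)) * f z) x, finrank_euclideanSpace_fin,
    abs_of_pos (by positivity), smul_eq_mul] at h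
  simpa only [av, add_sub_cancel_left, inv_smul_smul₀ hr.ne'] using h

theorem moll_int {φ f : E d → ℝ} (hφ : Continuous φ) (hc : HasCompactSupport φ)
    (hf : LocallyIntegrable f) (x : E d) {r : ℝ} (hr : 0 < r) :
    Integrable fun z => φ (r⁻¹ • (z - x)) * f z :=
  hf.integrable_smul_left_of_hasCompactSupport (g := fun z => φ (r⁻¹ • (z - x)))
    (hφ.comp ((continuous_id.sub continuous_const).const_smul r⁻¹))
    (hc.comp_homeomorph ((Homeomorph.subRight x).trans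
      (Homeomorph.smulOfNeZero r⁻¹ (inv_ne_zero hr.ne'))))

theorem av_int {φ f : E d → ℝ} (hφ : Continuous φ) (hc : HasCompactSupport φ)
    (hf : LocallyIntegrable f) (x : E d) {r : ℝ} (hr : 0 < r) :
    Integrable fun y => φ y * f (x + r • y) := by
  have h := ((moll_int hφ hc hf x hr).comp_add_left x).comp_smul hr.ne'
  simpa only [add_sub_cancel_left, inv_smul_smul₀ hr.ne'] using h

theorem moll_psi {φ : E d → ℝ} (hφ : ContDiff ℝ 1 φ) (hc : HasCompactSupport φ) :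
    Continuous (fun y => fderiv ℝ φ y y) ∧ HasCompactSupport fun y => fderiv ℝ φ y y :=
  ⟨(hφ.continuous_fderiv one_ne_zero).clm_apply continuous_id,
    (hc.fderiv ℝ).mono fun y hy h0 => hy (by simp only [h0, zero_apply])⟩

theorem moll_deriv {φ f : E d → ℝ} (hφ : ContDiff ℝ 1 φ) (hc : HasCompactSupport φ)
    (hf : LocallyIntegrable f) (x : E d) {r : ℝ} (hr : 0 < r) :
    HasDerivAt (fun s : ℝ => ∫ z, φ (s⁻¹ • (z - x)) * f z)
      (∫ z, -r⁻¹ * (fderiv ℝ φ (r⁻¹ • (z - x)) (r⁻¹ • (z - x)) * f z)) r := by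
  obtain ⟨c1, c2⟩ := moll_psi hφ hc
  obtain ⟨C, hC⟩ := c1.bounded_above_of_compact_support c2
  obtain ⟨R, hR⟩ := exists_radius c2
  have hs : Ioo (r / 2) (2 * r) ∈ 𝓝 r := Ioo_mem_nhds (by linarith) (by linarith)
  refine (hasDerivAt_integral_of_dominated_loc_of_deriv_le hs
    (F' := fun s z => -s⁻¹ * (fderiv ℝ φ (s⁻¹ • (z - x)) (s⁻¹ • (z - x)) * f z))
    (bound := (closedBall x (2 * r * |R|)).indicator fun z => (r / 2)⁻¹ * (C * ‖f z‖)) ?_
    (moll_int hφ.continuous hc hf x hr) ((moll_int c1 c2 hf x hr).const_mul _).aestronglyMeasurable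
    (Eventually.of_forall fun z s hs => ?_) ?_ (Eventually.of_forall fun z s hs => ?_)).2
  · filter_upwards [lt_mem_nhds hr] with s hs
    exact (moll_int hφ.continuous hc hf x hs).aestronglyMeasurable
  · have s0 : 0 < s := by linarith [hs.1]
    by_cases hz : z ∈ closedBall x (2 * r * |R|)
    · rw [indicator_of_mem hz, norm_mul, norm_mul, norm_neg, Real.norm_of_nonneg (inv_pos.2 s0).le]
      exact mul_le_mul (inv_anti₀ (by linarith) hs.1.le)
        (mul_le_mul_of_nonneg_right (hC _) (norm_nonneg _)) (by positivity) (by positivity)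
    · rw [indicator_of_notMem hz, hR, zero_mul, mul_zero, norm_zero]
      rw [mem_closedBall, dist_eq_norm, not_le] at hz
      rw [norm_smul, Real.norm_of_nonneg (inv_pos.2 s0).le, le_inv_mul_iff₀ s0]
      nlinarith [mul_le_mul_of_nonneg_left (le_abs_self R) s0.le,
        mul_le_mul_of_nonneg_right hs.2.le (abs_nonneg R)]
  · exact (integrable_indicator_iff measurableSet_closedBall).2
      (((hf.integrableOn_isCompact (isCompact_closedBall _ _)).norm.const_mul C).const_mul _)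
  · have s0 : 0 < s := by linarith [hs.1]
    have h1 := (((hφ.differentiable one_ne_zero (s⁻¹ • (z - x))).hasFDerivAt).comp_hasDerivAt s
      ((hasDerivAt_inv s0.ne').smul_const (z - x))).mul_const (f z)
    refine HasDerivAt.congr_deriv h1 ?_
    simp only [map_smul, smul_eq_mul]
    ring

theorem scale_deriv {φ f : E d → ℝ} (hφ : ContDiff ℝ 1 φ) (hc : HasCompactSupport φ)
    (hf : LocallyIntegrable f) (x : E d) {r : ℝ} (hr : 0 < r) :
    HasDerivAt (av φ f x) (-(av (fun y => d * φ y + fderiv ℝ φ y y) f x r) / r) r := by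
  obtain ⟨c1, c2⟩ := moll_psi hφ hc
  have h1 := (((hasDerivAt_pow d r).inv (pow_pos hr d).ne').mul
    (moll_deriv hφ hc hf x hr)).congr_of_eventuallyEq (f₁ := av φ f x) (by
      filter_upwards [lt_mem_nhds hr] with s hs
      exact av_eq φ f x hs)
  refine h1.congr_deriv ?_
  have e : (d : ℝ) * r ^ (d - 1) = d * r ^ d / r := by
    rw [eq_div_iff hr.ne']
    cases d with
    | zero => simp
    | succ n => rw [Nat.add_sub_cancel, mul_assoc, ← pow_succ]
  rw [av_eq _ f x hr, e]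
  simp only [add_mul, mul_assoc, Pi.inv_apply]
  rw [integral_add ((moll_int hφ.continuous hc hf x hr).const_mul _) (moll_int c1 c2 hf x hr),
    integral_const_mul, integral_const_mul]
  field_simp
  ring

theorem Mol.deriv {ρ Ψ f : E d → ℝ} {c : ℝ} (h : Mol ρ Ψ c) (hf : LocallyIntegrable f) (x : E d)
    {r : ℝ} (hr : 0 < r) : HasDerivAt (av ρ f x) (av (Vale.Agent.P098.lap Ψ) f x r / r) r := by
  refine (scale_deriv (h.sρ.of_le (by simp)) (compact_of_radius fun y hy => (h.z y hy).1) hf x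
    hr).congr_deriv ?_
  simp only [av, h.lap, neg_mul, integral_neg, neg_div]


end Vale.Agent.P098
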