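import Vale.Agent.P098.K.Calc

/-!
# P098 K/Jet  (helper names start with jet_)

Calculus of cubic polynomials.  `HasFDerivAt.clm_apply`.  `js j r` is the jet of `x ↦ ev j (r • x)`.
-/

set_option maxSynthPendingDepth 3

open MeasureTheory Filter Topology Set Metric
open scoped ContDiff RealInnerProductSpace NNReal

noncomputable section

namespace Vale.Agent.P098

variable {d : ℕ}

/-- The jet of `x ↦ ev j (r • x)`. -/
def js (j : Jet d) (r : ℝ) : Jet d := (j.1, r • j.2.1, r ^ 2 • j.2.2.1, r ^ 3 • j.2.2.2)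

variable {j j' : Jet d} {e : E d} {k : ℕ}

theorem jet_le (j : Jet d) :
    |j.1| ≤ ‖j‖ ∧ ‖j.2.1‖ ≤ ‖j‖ ∧ ‖j.2.2.1‖ ≤ ‖j‖ ∧ ‖j.2.2.2‖ ≤ ‖j‖ := 
  ⟨norm_fst_le j, (norm_fst_le j.2).trans (norm_snd_le j),
    (norm_fst_le j.2.2).trans ((norm_snd_le j.2).trans (norm_snd_le j)),
    (norm_snd_le j.2.2).trans ((norm_snd_le j.2).trans (norm_snd_le j))⟩
theorem norm_jet_le {C : ℝ} (h0 : |j.1| ≤ C) (h1 : ‖j.2.1‖ ≤ C) (h2 : ‖j.2.2.1‖ ≤ C)
    (h3 : ‖j.2.2.2‖ ≤ C) : ‖j‖ ≤ C := max_le h0 (max_le h1 (max_le h2 h3))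
theorem ev_add (j j' : Jet d) (x : E d) : ev (j + j') x = ev j x + ev j' x := by
  simp only [ev, Prod.fst_add, Prod.snd_add, ContinuousLinearMap.add_apply]
  ring
theorem ev_sub (j j' : Jet d) (x : E d) : ev (j - j') x = ev j x - ev j' x := by
  simp only [ev, Prod.fst_sub, Prod.snd_sub, ContinuousLinearMap.sub_apply]
  ring
theorem ev_smul (c : ℝ) (j : Jet d) (x : E d) : ev (c • j) x = c * ev j x := by
  simp only [ev, Prod.smul_fst, Prod.smul_snd, ContinuousLinearMap.smul_apply, smul_eq_mul]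
  ring
theorem ev_zero (x : E d) : ev (0 : Jet d) x = 0 := by simp [ev]
theorem ev_at_zero (j : Jet d) : ev j 0 = j.1 := by simp [ev]
theorem ev_js (j : Jet d) (r : ℝ) (x : E d) : ev (js j r) x = ev j (r • x) := by
  simp only [ev, js, map_smul, ContinuousLinearMap.smul_apply, smul_eq_mul]
  ring
theorem abs_ev_le (j : Jet d) {x : E d} {r : ℝ} (h : ‖x‖ ≤ r) :
    |ev j x| ≤ |j.1| + ‖j.2.1‖ * r + ‖j.2.2.1‖ * r ^ 2 + ‖j.2.2.2‖ * r ^ 3 := by
  have x0 := norm_nonneg x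
  have r0 := x0.trans h
  have h1 : |j.2.1 x| ≤ ‖j.2.1‖ * r :=
    (j.2.1.le_opNorm x).trans (mul_le_mul_of_nonneg_left h (norm_nonneg _))
  have h2 : |j.2.2.1 x x| ≤ ‖j.2.2.1‖ * r ^ 2 := (abs_B2_le _ x x).trans (by
    rw [mul_assoc, ← sq]
    exact mul_le_mul_of_nonneg_left (pow_le_pow_left₀ x0 h 2) (norm_nonneg _))
  have h3 : |j.2.2.2 x x x| ≤ ‖j.2.2.2‖ * r ^ 3 := (abs_B3_le _ x x x).trans (by
    rw [show ‖j.2.2.2‖ * ‖x‖ * ‖x‖ * ‖x‖ = ‖j.2.2.2‖ * ‖x‖ ^ 3 by ring]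
    exact mul_le_mul_of_nonneg_left (pow_le_pow_left₀ x0 h 3) (norm_nonneg _))
  have k0 := abs_le.1 (le_refl |j.1|)
  have k1 := abs_le.1 h1
  have k2 := abs_le.1 h2
  have k3 := abs_le.1 h3
  unfold ev
  rw [abs_le]
  constructor <;> linarith [k0.1, k0.2, k1.1, k1.2, k2.1, k2.2, k3.1, k3.2]
theorem contDiff_ev (j : Jet d) : ContDiff ℝ ∞ (ev j) := 
  ((contDiff_const.add j.2.1.contDiff).add ((j.2.2.1.contDiff.clm_apply contDiff_id).div_const 2)).add
    (((j.2.2.2.contDiff.clm_apply contDiff_id).clm_apply contDiff_id).div_const 6)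
theorem continuous_ev_jet (x : E d) : Continuous fun j : Jet d => ev j x := 
  ((continuous_fst.add (continuous_snd.fst.clm_apply continuous_const)).add
    (((continuous_snd.snd.fst.clm_apply continuous_const).clm_apply continuous_const).div_const 2)).add
    ((((continuous_snd.snd.snd.clm_apply continuous_const).clm_apply continuous_const).clm_apply
      continuous_const).div_const 6)
theorem HJ.fderiv (h : HJ j) (x : E d) :
    fderiv ℝ (ev j) x = j.2.1 + j.2.2.1 x + (1 / 2 : ℝ) • j.2.2.2 x x := by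
  have h1 := (((hasFDerivAt_const j.1 x).add j.2.1.hasFDerivAt).add
    ((j.2.2.1.hasFDerivAt.clm_apply (hasFDerivAt_id x)).mul_const (1 / 2))).add
    (((j.2.2.2.hasFDerivAt.clm_apply (hasFDerivAt_id x)).clm_apply (hasFDerivAt_id x)).mul_const (1 / 6))
  have e : ev j = fun y => j.1 + j.2.1 y + j.2.2.1 y y * (1 / 2) + j.2.2.2 y y y * (1 / 6) := by
    funext y
    simp only [ev, mul_one_div]
  rw [e]
  refine h1.fderiv.trans ?_
  ext v
  simp
  linarith [h.s2 v x, h.s3 v x x, h.s3' x v x]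
theorem HJ.D2 (h : HJ j) (x : E d) : D2 (ev j) x = j.2.2.1 + j.2.2.2 x := by
  have h1 := (((hasFDerivAt_const j.2.1 x).add j.2.2.1.hasFDerivAt).add
    ((j.2.2.2.hasFDerivAt.clm_apply (hasFDerivAt_id x)).const_smul (1 / 2 : ℝ)))
  unfold P098.D2
  rw [funext h.fderiv]
  refine h1.fderiv.trans ?_
  ext v w
  simp
  linarith [h.s3 v x w]
theorem HJ.D3 (h : HJ j) (x : E d) : D3 (ev j) x = j.2.2.2 := by
  unfold P098.D3
  rw [funext h.D2]
  exact (j.2.2.2.hasFDerivAt.const_add j.2.2.1).fderiv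
theorem HJ.lap (h : HJ j) (x : E d) : lap (ev j) x = 0 := by
  rw [P098.lap, h.D2, tr_add, h.t2, h.t3, add_zero]
theorem HJ.harm (h : HJ j) (O : Set (E d)) : Harm (ev j) O := fun x _ => ⟨(contDiff_ev j).contDiffAt, h.lap x⟩
theorem HJ.add (h : HJ j) (h' : HJ j') : HJ (j + j') := 
  ⟨fun v w => congrArg₂ (· + ·) (h.s2 v w) (h'.s2 v w),
    fun a v w => congrArg₂ (· + ·) (h.s3 a v w) (h'.s3 a v w),
    fun a v w => congrArg₂ (· + ·) (h.s3' a v w) (h'.s3' a v w),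
    (tr_add _ _).trans (by rw [h.t2, h'.t2, add_zero]),
    fun a => (tr_add (j.2.2.2 a) (j'.2.2.2 a)).trans (by rw [h.t3, h'.t3, add_zero])⟩
theorem HJ.smul (h : HJ j) (c : ℝ) : HJ (c • j) := 
  ⟨fun v w => congrArg (c * ·) (h.s2 v w), fun a v w => congrArg (c * ·) (h.s3 a v w),
    fun a v w => congrArg (c * ·) (h.s3' a v w), (tr_smul _ _).trans (by rw [h.t2, mul_zero]),
    fun a => (tr_smul c (j.2.2.2 a)).trans (by rw [h.t3, mul_zero])⟩
theorem HJ.js (h : HJ j) (r : ℝ) : HJ (js j r) := 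
  ⟨fun v w => congrArg (r ^ 2 * ·) (h.s2 v w), fun a v w => congrArg (r ^ 3 * ·) (h.s3 a v w),
    fun a v w => congrArg (r ^ 3 * ·) (h.s3' a v w), (tr_smul _ _).trans (by rw [h.t2, mul_zero]),
    fun a => (tr_smul (r ^ 3) (j.2.2.2 a)).trans (by rw [h.t3, mul_zero])⟩
theorem hj_zero : HJ (0 : Jet d) := ⟨fun _ _ => rfl, fun _ _ _ => rfl, fun _ _ _ => rfl, tr_zero, fun _ => tr_zero⟩
theorem ej_zero (e : E d) (k : ℕ) : EJ e k 0 := 
  ⟨hj_zero, fun x => by rw [ev_zero, ev_zero], fun _ => rfl, fun _ => rfl⟩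
theorem EJ.add (h : EJ e k j) (h' : EJ e k j') : EJ e k (j + j') := 
  ⟨h.hj.add h'.hj, fun x => by rw [ev_add, ev_add, h.even, h'.even],
    fun hk => show j.2.2.1 + j'.2.2.1 = 0 by rw [h.d2 hk, h'.d2 hk, add_zero],
    fun hk => show j.2.2.2 + j'.2.2.2 = 0 by rw [h.d3 hk, h'.d3 hk, add_zero]⟩
theorem EJ.smul (h : EJ e k j) (c : ℝ) : EJ e k (c • j) := 
  ⟨h.hj.smul c, fun x => by rw [ev_smul, ev_smul, h.even],
    fun hk => show c • j.2.2.1 = 0 by rw [h.d2 hk, smul_zero],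
    fun hk => show c • j.2.2.2 = 0 by rw [h.d3 hk, smul_zero]⟩
theorem EJ.js (h : EJ e k j) (r : ℝ) : EJ e k (js j r) := 
  ⟨h.hj.js r, fun x => by rw [ev_js, ev_js, ← rf_smul, h.even],
    fun hk => show r ^ 2 • j.2.2.1 = 0 by rw [h.d2 hk, smul_zero],
    fun hk => show r ^ 3 • j.2.2.2 = 0 by rw [h.d3 hk, smul_zero]⟩
theorem isClosed_EJ (e : E d) (k : ℕ) : IsClosed {j : Jet d | EJ e k j} := by
  have c2 : Continuous fun j : Jet d => j.2.2.1 := continuous_snd.snd.fst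
  have c3 : Continuous fun j : Jet d => j.2.2.2 := continuous_snd.snd.snd
  have a2 : ∀ v w, Continuous fun j : Jet d => j.2.2.1 v w := fun v w =>
    (c2.clm_apply continuous_const).clm_apply continuous_const
  have b3 : ∀ a, Continuous fun j : Jet d => j.2.2.2 a := fun a => c3.clm_apply continuous_const
  have a3 : ∀ a v w, Continuous fun j : Jet d => j.2.2.2 a v w := fun a v w =>
    ((b3 a).clm_apply continuous_const).clm_apply continuous_const
  refine isClosed_of_closure_subset fun j hj => ?_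
  have key : ∀ {Y : Type} [TopologicalSpace Y] [T2Space Y] {f g : Jet d → Y}, Continuous f →
      Continuous g → (∀ i, EJ e k i → f i = g i) → f j = g j := fun hf hg h =>
    closure_minimal (fun i hi => h i hi) (isClosed_eq hf hg) hj
  exact ⟨⟨fun v w => key (a2 v w) (a2 w v) fun i hi => hi.hj.s2 v w,
    fun a v w => key (a3 a v w) (a3 v a w) fun i hi => hi.hj.s3 a v w,
    fun a v w => key (a3 a v w) (a3 a w v) fun i hi => hi.hj.s3' a v w,
    key (continuous_tr.comp c2) continuous_const fun i hi => hi.hj.t2,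
    fun a => key (continuous_tr.comp (b3 a)) continuous_const fun i hi => hi.hj.t3 a⟩,
    fun x => key (continuous_ev_jet _) (continuous_ev_jet _) fun i hi => hi.even x,
    fun hk => key c2 continuous_const fun i hi => hi.d2 hk,
    fun hk => key c3 continuous_const fun i hi => hi.d3 hk⟩
/-- The homogeneous parts of an even polynomial are even (compare `ev j (t • x)` as polynomials in `t`,
or differentiate at `0` with `fderiv_iso`). -/
theorem EJ.parts (he : ‖e‖ = 1) (h : EJ e k j) : j.2.1 e = 0 ∧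
    (∀ v, ⟪e, v⟫ = 0 → j.2.2.1 e v = 0) ∧
    (∀ v w, ⟪e, v⟫ = 0 → ⟪e, w⟫ = 0 → j.2.2.2 e v w = 0) ∧ j.2.2.2 e e e = 0 := by
  obtain ⟨R, hR⟩ := exists_rfL he
  have ee : ⟪e, e⟫ = 1 := by rw [real_inner_self_eq_norm_sq, he, one_pow]
  have Re : R e = -e := by
    rw [hR, rf, ee, mul_one, two_smul, sub_add_cancel_left]
  have Rv : ∀ v, ⟪e, v⟫ = 0 → R v = v := fun v hv => by
    rw [hR, rf, hv, mul_zero, zero_smul, sub_zero]
  have k : ∀ x, j.2.1 e + j.2.2.1 x e + 1 / 2 * j.2.2.2 x x e =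
      -(j.2.1 e + j.2.2.1 (R x) e + 1 / 2 * j.2.2.2 (R x) (R x) e) := fun x => by
    have h1 := fderiv_iso R (ev j) x e
    simp only [hR, h.even] at h1
    rw [← hR, ← hR, Re, map_neg, show (fun y => ev j y) = ev j from rfl, h.hj.fderiv,
      h.hj.fderiv] at h1
    exact h1
  have k0 : j.2.1 e = 0 := by
    have := k 0
    simp only [map_zero, ContinuousLinearMap.zero_apply] at this
    linarith
  have k1 : ∀ v, ⟪e, v⟫ = 0 → j.2.2.1 v e = 0 ∧ j.2.2.2 v v e = 0 := fun v hv => by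
    have a := k v
    have b := k (-v)
    simp only [map_neg, Rv v hv, ContinuousLinearMap.neg_apply] at a b
    constructor <;> linarith
  refine ⟨k0, fun v hv => (h.hj.s2 e v).trans (k1 v hv).1, fun v w hv hw => ?_, ?_⟩
  · have a := (k1 (v + w) (by rw [inner_add_right, hv, hw, add_zero])).2
    simp only [map_add, ContinuousLinearMap.add_apply] at a
    linarith [(k1 v hv).2, (k1 w hw).2, h.hj.s3 w v e, h.hj.s3 e v w, h.hj.s3' v e w]
  · have a := k e
    simp only [Re, map_neg, ContinuousLinearMap.neg_apply] at a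
    linarith
theorem jet_dec (he : ‖e‖ = 1) (x : E d) : ∃ y, ⟪e, y⟫ = 0 ∧ x = y + ⟪e, x⟫ • e :=
  ⟨x - ⟪e, x⟫ • e, by
    rw [inner_sub_right, real_inner_smul_right, real_inner_self_eq_norm_sq, he]
    ring, (sub_add_cancel _ _).symm⟩
/-- Converse of `EJ.parts`. -/
theorem ej_of_parts (he : ‖e‖ = 1) (h : HJ j) (h1 : j.2.1 e = 0)
    (h2 : ∀ v, ⟪e, v⟫ = 0 → j.2.2.1 e v = 0)
    (h3 : ∀ v w, ⟪e, v⟫ = 0 → ⟪e, w⟫ = 0 → j.2.2.2 e v w = 0) (h4 : j.2.2.2 e e e = 0)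
    (d2 : k < 2 → j.2.2.1 = 0) (d3 : k < 3 → j.2.2.2 = 0) : EJ e k j := by
  refine ⟨h, fun x => ?_, d2, d3⟩
  obtain ⟨y, hy, hx⟩ := jet_dec he x
  have key : ∀ t : ℝ, ev j (y + t • e) = j.1 + j.2.1 y + (j.2.2.1 y y + t ^ 2 * j.2.2.1 e e) / 2 +
      (j.2.2.2 y y y + 3 * t ^ 2 * j.2.2.2 e e y) / 6 := fun t => by
    have a1 := h2 y hy
    have a2 := h3 y y hy hy
    simp only [ev, map_add, map_smul, ContinuousLinearMap.add_apply,
      ContinuousLinearMap.smul_apply, smul_eq_mul, h1, a1, a2, h4, h.s2 y e, h.s3 y e,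
      h.s3' y y e, h.s3' e y e]
    ring
  have e1 : rf e x = y + (-⟪e, x⟫) • e := by
    rw [rf]
    nth_rewrite 1 [hx]
    module
  rw [e1, key]
  nth_rewrite 3 [hx]
  rw [key]
  ring
/-- The normal derivative of an even polynomial near the hyperplane. -/
theorem EJ.normal_le (he : ‖e‖ = 1) (h : EJ e k j) {x : E d} {r : ℝ} (hx : ‖x‖ ≤ r) :
    |fderiv ℝ (ev j) x e| ≤ |⟪e, x⟫| * (‖j.2.2.1‖ + 2 * ‖j.2.2.2‖ * r) := by
  obtain ⟨p1, p2, p3, p4⟩ := h.parts he
  obtain ⟨y, hy, e1⟩ := jet_dec he x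
  have t1 : |⟪e, x⟫| ≤ r := (abs_real_inner_le_norm e x).trans (by rw [he, one_mul]; exact hx)
  have y1 : ‖y‖ ≤ 2 * r := by
    rw [eq_sub_of_add_eq e1.symm]
    refine (norm_sub_le _ _).trans ?_
    rw [norm_smul, he, Real.norm_eq_abs]
    linarith
  generalize ⟪e, x⟫ = t at *
  have e2 : fderiv ℝ (ev j) x e = t * (j.2.2.1 e e + j.2.2.2 e e y) := by
    have a1 := p2 y hy
    have a2 := p3 y y hy hy
    rw [h.hj.fderiv, e1]
    simp only [map_add, map_smul, ContinuousLinearMap.add_apply,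
      ContinuousLinearMap.smul_apply, smul_eq_mul, p1, a1, a2, p4, h.hj.s2 y e, h.hj.s3 y e,
      h.hj.s3' y y e, h.hj.s3' e y e]
    ring
  rw [e2, abs_mul]
  refine mul_le_mul_of_nonneg_left ((abs_add_le _ _).trans (add_le_add ?_ ?_)) (abs_nonneg t)
  · simpa [he] using abs_B2_le j.2.2.1 e e
  · refine (abs_B3_le j.2.2.2 e e y).trans ?_
    rw [he, mul_one, mul_one]
    linarith [mul_le_mul_of_nonneg_left y1 (norm_nonneg j.2.2.2)]

end Vale.Agent.P098
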