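import Vale.Agent.P098.K.Weyl
import Vale.Agent.P098.K.Jet

/-!
# P098 K/Est  (helper names start with est_)

Higher estimates: apply `harm_est` on balls of half the radius to `y ↦ fderiv h y v` (`Harm.fderiv`, `D2_apply`, `D3_apply'`, `norm_B2_le`, `norm_B3_le`).
Taylor: `‖D3 h z - D3 h 0‖ ≤ C ‖z‖` (mean value inequality for the harmonic functions `y ↦ D3 h y a v w`, or once more the same trick), then three times
`Convex.norm_image_sub_le_of_norm_fderiv_le` on `closedBall 0 ‖y‖` for `g = h - ev (jet h)`, whose jet at `0` vanishes (`HJ.fderiv`, `HJ.D2`, `HJ.D3`).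
-/

set_option maxSynthPendingDepth 3

open MeasureTheory Filter Topology Set Metric
open scoped ContDiff RealInnerProductSpace NNReal

noncomputable section

namespace Vale.Agent.P098

variable {d : ℕ}

/-- The jet at the origin. -/
def jet (h : E d → ℝ) : Jet d := (h 0, fderiv ℝ h 0, D2 h 0, D3 h 0)

theorem est_sub {x y : E d} {r a b : ℝ} (hy : dist y x ≤ a) (h : a + b ≤ r) :
    ball y b ⊆ ball x r := by
  intro z hz
  rw [mem_ball] at hz ⊢
  linarith [dist_triangle z y x]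

theorem est_two {f : E d → ℝ} {x : E d} (h : ContDiffAt ℝ ∞ f x) : ContDiffAt ℝ 2 f x :=
  h.of_le (ENat.LEInfty.out (m := 2))

theorem est_three {f : E d → ℝ} {x : E d} (h : ContDiffAt ℝ ∞ f x) : ContDiffAt ℝ 3 f x :=
  h.of_le (ENat.LEInfty.out (m := 3))

/-- The directional derivative is harmonic and bounded on the ball of half the radius. -/
theorem est_dir {C : ℝ} (hC : ∀ (h : E d → ℝ) (x : E d) (r M : ℝ), 0 < r →
    Harm h (ball x r) → (∀ y ∈ ball x r, |h y| ≤ M) → ‖fderiv ℝ h x‖ ≤ C * M / r)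
    {h : E d → ℝ} {x : E d} {r M : ℝ} (hr : 0 < r) (hh : Harm h (ball x r))
    (hM : ∀ y ∈ ball x r, |h y| ≤ M) (w : E d) :
    Harm (fun y => fderiv ℝ h y w) (ball x (r / 2)) ∧
      ∀ y ∈ ball x (r / 2), |fderiv ℝ h y w| ≤ C * M / (r / 2) * ‖w‖ := by
  refine ⟨(hh.fderiv isOpen_ball w).mono (ball_subset_ball (by linarith)), fun y hy => ?_⟩
  have hs : ball y (r / 2) ⊆ ball x r := est_sub (mem_ball.1 hy).le (by linarith)
  have h1 := hC h y (r / 2) M (by linarith) (hh.mono hs) fun z hz => hM z (hs hz)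
  calc |fderiv ℝ h y w| ≤ ‖fderiv ℝ h y‖ * ‖w‖ := (fderiv ℝ h y).le_opNorm w
    _ ≤ _ := mul_le_mul_of_nonneg_right h1 (norm_nonneg _)

theorem est_D2 {C : ℝ} (C1 : 1 ≤ C) (hC : ∀ (h : E d → ℝ) (x : E d) (r M : ℝ), 0 < r →
    Harm h (ball x r) → (∀ y ∈ ball x r, |h y| ≤ M) → ‖fderiv ℝ h x‖ ≤ C * M / r)
    {h : E d → ℝ} {x : E d} {r M : ℝ} (hr : 0 < r) (hh : Harm h (ball x r))
    (hM : ∀ y ∈ ball x r, |h y| ≤ M) : ‖D2 h x‖ ≤ 4 * C ^ 2 * M / r ^ 2 := by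
  have M0 : 0 ≤ M := (abs_nonneg _).trans (hM x (mem_ball_self hr))
  refine norm_B2_le (by positivity) fun v w => ?_
  obtain ⟨g1, g2⟩ := est_dir hC hr hh hM w
  have h1 := hC _ x (r / 2) _ (by linarith) g1 g2
  rw [D2_apply (est_two (hh x (mem_ball_self hr)).1)]
  calc |fderiv ℝ (fun y => fderiv ℝ h y w) x v| ≤ ‖fderiv ℝ (fun y => fderiv ℝ h y w) x‖ * ‖v‖ :=
        (fderiv ℝ (fun y => fderiv ℝ h y w) x).le_opNorm v
    _ ≤ C * (C * M / (r / 2) * ‖w‖) / (r / 2) * ‖v‖ :=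
        mul_le_mul_of_nonneg_right h1 (norm_nonneg _)
    _ = _ := by field_simp; ring

theorem est_D3 {C : ℝ} (C1 : 1 ≤ C) (hC : ∀ (h : E d → ℝ) (x : E d) (r M : ℝ), 0 < r →
    Harm h (ball x r) → (∀ y ∈ ball x r, |h y| ≤ M) → ‖fderiv ℝ h x‖ ≤ C * M / r)
    {h : E d → ℝ} {x : E d} {r M : ℝ} (hr : 0 < r) (hh : Harm h (ball x r))
    (hM : ∀ y ∈ ball x r, |h y| ≤ M) : ‖D3 h x‖ ≤ 32 * C ^ 3 * M / r ^ 3 := by
  have M0 : 0 ≤ M := (abs_nonneg _).trans (hM x (mem_ball_self hr))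
  refine norm_B3_le (by positivity) fun a v w => ?_
  obtain ⟨g1, g2⟩ := est_dir hC hr hh hM w
  have h1 := est_D2 C1 hC (by linarith : 0 < r / 2) g1 g2
  rw [D3_apply' (est_three (hh x (mem_ball_self hr)).1)]
  calc |D2 (fun y => fderiv ℝ h y w) x a v| ≤ ‖D2 (fun y => fderiv ℝ h y w) x‖ * ‖a‖ * ‖v‖ :=
        abs_B2_le _ _ _
    _ ≤ 4 * C ^ 2 * (C * M / (r / 2) * ‖w‖) / (r / 2) ^ 2 * ‖a‖ * ‖v‖ := by gcongr
    _ = _ := by field_simp; ring

theorem harm_est3 (d : ℕ) : ∃ C : ℝ, 1 ≤ C ∧ ∀ (h : E d → ℝ) (x : E d) (r M : ℝ), 0 < r →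
    Harm h (ball x r) → (∀ y ∈ ball x r, |h y| ≤ M) → ‖fderiv ℝ h x‖ ≤ C * M / r ∧
      ‖D2 h x‖ ≤ C * M / r ^ 2 ∧ ‖D3 h x‖ ≤ C * M / r ^ 3 := by
  obtain ⟨C, C1, hC⟩ := harm_est d
  have a1 : C ≤ C ^ 3 := le_self_pow₀ C1 (by norm_num)
  have a2 : C ^ 2 ≤ C ^ 3 := pow_le_pow_right₀ C1 (by norm_num)
  refine ⟨32 * C ^ 3, by linarith, fun h x r M hr hh hM => ?_⟩
  have M0 : 0 ≤ M := (abs_nonneg _).trans (hM x (mem_ball_self hr))
  refine ⟨(hC h x r M hr hh hM).trans ?_, (est_D2 C1 hC hr hh hM).trans ?_, est_D3 C1 hC hr hh hM⟩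
  · gcongr; linarith
  · gcongr ?_ * M / _; linarith

theorem hj_jet {h : E d → ℝ} {r : ℝ} (hr : 0 < r) (hh : Harm h (ball 0 r)) : HJ (jet h) := by
  have h0 := hh 0 (mem_ball_self hr)
  refine ⟨fun v w => D2_symm (est_two h0.1) v w, fun a v w => (D3_symm (est_three h0.1) a v w).1,
    fun a v w => (D3_symm (est_three h0.1) a v w).2, h0.2, fun a => ?_⟩
  have h1 := (hh.fderiv isOpen_ball a 0 (mem_ball_self hr)).2
  rw [← h1]
  refine Finset.sum_congr rfl fun i _ => ?_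
  show D3 h 0 a (bv i) (bv i) = _
  rw [(D3_symm (est_three h0.1) a (bv i) (bv i)).1, (D3_symm (est_three h0.1) (bv i) a (bv i)).2,
    D3_apply' (est_three h0.1)]

theorem est_D2_iso (R : E d ≃ₗᵢ[ℝ] E d) {g : E d → ℝ} (hg : ContDiffAt ℝ 2 g 0) (a v : E d) :
    D2 (fun y => g (R y)) 0 a v = D2 g 0 (R a) (R v) := by
  have h1 : ContDiffAt ℝ 2 (fun y => g (R y)) 0 := by
    have : ContDiffAt ℝ 2 g (R 0) := by rwa [map_zero]
    exact this.comp 0 R.toContinuousLinearEquiv.contDiff.contDiffAt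
  rw [D2_apply h1, D2_apply hg]
  have e : (fun y => fderiv ℝ (fun y => g (R y)) y v)
      = fun y => (fun z => fderiv ℝ g z (R v)) (R y) := funext fun y => fderiv_iso R g y v
  rw [e, fderiv_iso R (fun z => fderiv ℝ g z (R v)), map_zero]

theorem ej_jet {h : E d → ℝ} {e : E d} (he : ‖e‖ = 1) {r : ℝ} (hr : 0 < r) (hh : Harm h (ball 0 r))
    (hv : ∀ x, h (rf e x) = h x) : EJ e 3 (jet h) := by
  refine ⟨hj_jet hr hh, fun x => ?_, fun h => absurd h (by norm_num), fun h => absurd h (by norm_num)⟩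
  obtain ⟨R, hR⟩ := exists_rfL he
  have h0 := (hh 0 (mem_ball_self hr)).1
  have eh : (fun y => h (R y)) = h := funext fun y => by rw [hR, hv]
  have e1 : fderiv ℝ h 0 (R x) = fderiv ℝ h 0 x := by
    have := fderiv_iso R h 0 x
    rw [eh, map_zero] at this
    exact this.symm
  have e2 : D2 h 0 (R x) (R x) = D2 h 0 x x := by
    have := est_D2_iso R (est_two h0) x x
    rw [eh] at this
    exact this.symm
  have e3 : D3 h 0 (R x) (R x) (R x) = D3 h 0 x x x := by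
    rw [D3_apply' (est_three h0), D3_apply' (est_three h0),
      ← est_D2_iso R (est_two (contDiffAt_fderiv_apply h0 (R x))) x x]
    have e : (fun y => fderiv ℝ h (R y) (R x)) = fun y => fderiv ℝ h y x := by
      funext y
      have := fderiv_iso R h y x
      rw [eh] at this
      exact this.symm
    rw [e]
  rw [← hR]
  simp only [ev, jet, e1, e2, e3]

theorem est_D3_lip (d : ℕ) : ∃ C : ℝ, 1 ≤ C ∧ ∀ (h : E d → ℝ) (r M : ℝ), 0 < r →
    Harm h (ball 0 r) → (∀ y ∈ ball (0 : E d) r, |h y| ≤ M) →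
      ∀ z, ‖z‖ ≤ r / 2 → ‖D3 h z - D3 h 0‖ ≤ C * M / r ^ 4 * ‖z‖ := by
  obtain ⟨C, C1, hC⟩ := harm_est3 d
  refine ⟨256 * C ^ 2, by nlinarith, fun h r M hr hh hM z hz => ?_⟩
  have M0 : 0 ≤ M := (abs_nonneg _).trans (hM 0 (mem_ball_self hr))
  refine norm_B3_le (by positivity) fun a v w => ?_
  have g1 := hh.fderiv isOpen_ball w
  have g3 := (g1.fderiv isOpen_ball v).fderiv isOpen_ball a
  set k : E d → ℝ := fun y => fderiv ℝ (fun y => fderiv ℝ (fun y => fderiv ℝ h y w) y v) y a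
    with hk
  have ek : ∀ y ∈ ball (0 : E d) r, D3 h y a v w = k y := fun y hy => by
    rw [D3_apply' (est_three (hh y hy).1), D2_apply (est_two (g1 y hy).1)]
  have b1 : ∀ y ∈ ball (0 : E d) (3 * r / 4),
      |k y| ≤ C * M / (r / 4) ^ 3 * ‖a‖ * ‖v‖ * ‖w‖ := fun y hy => by
    have hs : ball y (r / 4) ⊆ ball 0 r := est_sub (mem_ball.1 hy).le (by linarith)
    have h1 := (hC h y (r / 4) M (by linarith) (hh.mono hs) fun z hz => hM z (hs hz)).2.2
    rw [← ek y (ball_subset_ball (by linarith) hy)]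
    refine (abs_B3_le _ _ _ _).trans ?_
    gcongr
  have hsub : closedBall (0 : E d) (r / 2) ⊆ ball 0 r := closedBall_subset_ball (by linarith)
  have b2 : ∀ y ∈ closedBall (0 : E d) (r / 2),
      ‖fderiv ℝ k y‖ ≤ C * (C * M / (r / 4) ^ 3 * ‖a‖ * ‖v‖ * ‖w‖) / (r / 4) := fun y hy => by
    have hs : ball y (r / 4) ⊆ ball 0 (3 * r / 4) := est_sub (mem_closedBall.1 hy) (by linarith)
    exact (hC k y (r / 4) _ (by linarith)
      (g3.mono (hs.trans (ball_subset_ball (by linarith)))) fun z hz => b1 z (hs hz)).1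
  have hz' : z ∈ closedBall (0 : E d) (r / 2) := by simpa using hz
  have h0 : (0 : E d) ∈ closedBall (0 : E d) (r / 2) := mem_closedBall_self (by linarith)
  have mv := (convex_closedBall (0 : E d) (r / 2)).norm_image_sub_le_of_norm_fderiv_le
    (fun y hy => (g3 y (hsub hy)).1.differentiableAt (by simp)) b2 h0 hz'
  rw [sub_zero, ← ek z (hsub hz'), ← ek 0 (hsub h0), Real.norm_eq_abs] at mv
  refine le_of_le_of_eq mv ?_
  field_simp
  ring

theorem harm_taylor (d : ℕ) : ∃ C : ℝ, 1 ≤ C ∧ ∀ (h : E d → ℝ) (r M : ℝ), 0 < r →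
    Harm h (ball 0 r) → (∀ y ∈ ball (0 : E d) r, |h y| ≤ M) →
      ∀ y, ‖y‖ ≤ r / 2 → |h y - ev (jet h) y| ≤ C * M * (‖y‖ / r) ^ 4 := by
  obtain ⟨C, C1, hC⟩ := est_D3_lip d
  refine ⟨C, C1, fun h r M hr hh hM y hy => ?_⟩
  have M0 : 0 ≤ M := (abs_nonneg _).trans (hM 0 (mem_ball_self hr))
  have hj := hj_jet hr hh
  set K := C * M / r ^ 4 with hK
  have K0 : 0 ≤ K := by positivity
  set g : E d → ℝ := fun z => h z - ev (jet h) z with hg
  have hsub : closedBall (0 : E d) ‖y‖ ⊆ ball 0 r := closedBall_subset_ball (by linarith)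
  have cv := convex_closedBall (0 : E d) ‖y‖
  have h0 : (0 : E d) ∈ closedBall (0 : E d) ‖y‖ := mem_closedBall_self (norm_nonneg _)
  have ce : ∀ z : E d, ContDiffAt ℝ ∞ (ev (jet h)) z := fun z => (contDiff_ev _).contDiffAt
  have cg : ∀ z ∈ closedBall (0 : E d) ‖y‖, ContDiffAt ℝ ∞ g z := fun z hz =>
    (hh z (hsub hz)).1.sub (ce z)
  have nz : ∀ z ∈ closedBall (0 : E d) ‖y‖, ‖z‖ ≤ ‖y‖ := fun z hz => by simpa using hz
  have c0 := (hh 0 (mem_ball_self hr)).1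
  have b3 : ∀ z ∈ closedBall (0 : E d) ‖y‖, ‖fderiv ℝ (D2 g) z‖ ≤ K * ‖y‖ := fun z hz => by
    have e : D3 g z = D3 h z - D3 h 0 := by
      rw [hg, D3_sub (est_three (hh z (hsub hz)).1) (est_three (ce z)), hj.D3]
      rfl
    show ‖D3 g z‖ ≤ _
    rw [e]
    exact (hC h r M hr hh hM z ((nz z hz).trans hy)).trans
      (mul_le_mul_of_nonneg_left (nz z hz) K0)
  have z2 : D2 g 0 = 0 := by
    rw [hg, D2_sub (est_two c0) (est_two (ce 0)), hj.D2, map_zero, add_zero]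
    exact sub_self _
  have b2 : ∀ z ∈ closedBall (0 : E d) ‖y‖, ‖fderiv ℝ (fderiv ℝ g) z‖ ≤ K * ‖y‖ * ‖y‖ :=
    fun z hz => by
    have mv := cv.norm_image_sub_le_of_norm_fderiv_le (f := D2 g)
      (fun z hz => (contDiffAt_D2 (cg z hz)).differentiableAt (by simp)) b3 h0 hz
    rw [z2, sub_zero, sub_zero] at mv
    exact mv.trans (mul_le_mul_of_nonneg_left (nz z hz) (by positivity))
  have z1 : fderiv ℝ g 0 = 0 := by
    rw [hg, fderiv_fun_sub (c0.differentiableAt (by simp)) ((ce 0).differentiableAt (by simp)),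
      hj.fderiv]
    simp [jet]
  have b1 : ∀ z ∈ closedBall (0 : E d) ‖y‖, ‖fderiv ℝ g z‖ ≤ K * ‖y‖ * ‖y‖ * ‖y‖ :=
    fun z hz => by
    have mv := cv.norm_image_sub_le_of_norm_fderiv_le (f := fderiv ℝ g)
      (fun z hz => ((est_two (cg z hz)).fderiv_right (m := 1) (by norm_num)).differentiableAt
        (by simp)) b2 h0 hz
    rw [z1, sub_zero, sub_zero] at mv
    exact mv.trans (mul_le_mul_of_nonneg_left (nz z hz) (by positivity))
  have z0 : g 0 = 0 := by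
    rw [hg]
    simp only [ev_at_zero, jet, sub_self]
  have mv := cv.norm_image_sub_le_of_norm_fderiv_le (f := g)
    (fun z hz => (cg z hz).differentiableAt (by simp)) b1 h0
    (show y ∈ closedBall (0 : E d) ‖y‖ by simp)
  rw [z0, sub_zero, sub_zero, Real.norm_eq_abs] at mv
  refine le_of_le_of_eq mv ?_
  rw [hK]
  field_simp

end Vale.Agent.P098
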