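import Vale.Agent.P098.Basic

/-!
# P098 K/Net  (helper names start with net_)

A finite net for Lipschitz functions on a compact set.  Take a finite `η`-net `t ⊆ G` (`IsCompact.finite_cover_balls`), for `a : t → ℤ` with `|a| ≤ 1 / η + 1` the function
`x ↦ max (-1) (min 1 (inf over i of (η * a i + L * ‖x - i‖)))` (`Finset.inf'`; if `G` is empty take `{0}`), and `a i = ⌈f i / η⌉`.
-/

set_option maxSynthPendingDepth 3

open MeasureTheory Filter Topology Set Metric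
open scoped ContDiff RealInnerProductSpace NNReal

noncomputable section

namespace Vale.Agent.P098

variable {d : ℕ}

theorem net_ext {G : Set (E d)} {L : ℝ} (hL : 0 ≤ L) {f : E d → ℝ} (h1 : ∀ x ∈ G, |f x| ≤ 1)
    (h2 : ∀ x ∈ G, ∀ y ∈ G, |f x - f y| ≤ L * ‖x - y‖) :
    ∃ g : E d → ℝ, (Continuous g ∧ ∀ x, |g x| ≤ 1) ∧ ∀ x ∈ G, g x = f x := by
  have hl : LipschitzOnWith ⟨L, hL⟩ f G := LipschitzOnWith.of_dist_le_mul fun x hx y hy => by
    rw [Real.dist_eq, dist_eq_norm]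
    exact h2 x hx y hy
  obtain ⟨g, hg, hfg⟩ := hl.extend_real
  refine ⟨fun x => max (-1) (min 1 (g x)),
    ⟨continuous_const.max (continuous_const.min hg.continuous), fun x => abs_le.2
      ⟨le_max_left _ _, max_le (by norm_num) (min_le_left _ _)⟩⟩, fun x hx => ?_⟩
  have := abs_le.1 (h1 x hx)
  show max (-1) (min 1 (g x)) = f x
  rw [← hfg hx, min_eq_right this.2, max_eq_right this.1]

theorem exists_net {G : Set (E d)} (hG : IsCompact G) {L δ : ℝ} (hL : 0 ≤ L) (hδ : 0 < δ) :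
    ∃ F : Set (E d → ℝ), F.Finite ∧ (∀ g ∈ F, Continuous g ∧ ∀ x, |g x| ≤ 1) ∧
      ∀ f : E d → ℝ, (∀ x ∈ G, |f x| ≤ 1) → (∀ x ∈ G, ∀ y ∈ G, |f x - f y| ≤ L * ‖x - y‖) →
        ∃ g ∈ F, ∀ x ∈ G, |f x - g x| ≤ δ := by
  obtain ⟨η, hη, e⟩ : ∃ η : ℝ, 0 < η ∧ L * η + η + L * η = δ :=
    ⟨δ / (2 * L + 1), by positivity, by field_simp; ring⟩
  obtain ⟨t, htG, htf, hcov⟩ := hG.finite_cover_balls hη
  have := htf.to_subtype
  let A : Set (E d → ℝ) :=
    {f | (∀ x ∈ G, |f x| ≤ 1) ∧ ∀ x ∈ G, ∀ y ∈ G, |f x - f y| ≤ L * ‖x - y‖}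
  let pat : (E d → ℝ) → t → ℤ := fun f i => ⌊f i / η⌋
  have hP : (pat '' A).Finite := by
    refine (Set.Finite.pi' (t := fun _ : t => Icc ⌊-1 / η⌋ ⌊1 / η⌋)
      fun _ => finite_Icc _ _).subset ?_
    rintro _ ⟨f, hf, rfl⟩ i
    have h := abs_le.1 (hf.1 i (htG i.2))
    exact ⟨Int.floor_mono (div_le_div_of_nonneg_right h.1 hη.le),
      Int.floor_mono (div_le_div_of_nonneg_right h.2 hη.le)⟩
  have := hP.to_subtype
  choose r hr hrp using fun p : pat '' A => p.2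
  choose g hg hgr using fun p : pat '' A => net_ext hL (hr p).1 (hr p).2
  refine ⟨range g, finite_range g, ?_, fun f h1 h2 => ?_⟩
  · rintro _ ⟨p, rfl⟩
    exact hg p
  · let p : pat '' A := ⟨pat f, f, ⟨h1, h2⟩, rfl⟩
    refine ⟨g p, ⟨p, rfl⟩, fun x hx => ?_⟩
    obtain ⟨i, hi, hxi⟩ := mem_iUnion₂.1 (hcov hx)
    rw [mem_ball, dist_eq_norm] at hxi
    have a1 := (h2 x hx i (htG hi)).trans (mul_le_mul_of_nonneg_left hxi.le hL)
    have a2 := ((hr p).2 x hx i (htG hi)).trans (mul_le_mul_of_nonneg_left hxi.le hL)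
    have a3 : |r p i / η - f i / η| < 1 :=
      Int.abs_sub_lt_one_of_floor_eq_floor (congrFun (hrp p) ⟨i, hi⟩)
    rw [← sub_div, abs_div, abs_of_pos hη, div_lt_one hη] at a3
    rw [hgr p x hx]
    rw [abs_le] at a1 a2 ⊢
    rw [abs_lt] at a3
    constructor <;> linarith [a1.1, a1.2, a2.1, a2.2, a3.1, a3.2]

end Vale.Agent.P098
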