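import Vale.Agent.P098.K.Max

/-!
# P098 K/Poly  (helper names start with poly_)

The Dirichlet problem on an ellipsoid with harmonic polynomials.  For `p : MvPolynomial (Fin d) ℝ` let `pf p x = eval (fun i => x i) p`; `fderiv (pf p) x (bv i) = pf (pderiv i p) x` (induction on `p`), so `lap (pf p) = pf (∑ i, pderiv i (pderiv i p))`.
With `q₀` the polynomial of `1 - Ql`, the linear map `q ↦ Δ (q₀ * q)` sends `restrictTotalDegree (Fin d) ℝ m` to itself (each `pderiv` lowers the total degree by one, or kills the polynomial), is injective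
(`max_principle` for `± pf (q₀ * q)`: it vanishes on the ellipsoid, a neighbourhood of `0`, hence `q₀ * q = 0` by `MvPolynomial.funext_set` or analyticity / scaling; `q₀ ≠ 0`), hence onto (`LinearMap.injective_iff_surjective`).
So `h = p - q₀ * q` with `Δ (q₀ q) = Δ p`.  Stone-Weierstrass on the compact set `{Ql = 1}` (`ContinuousMap.exists_mem_subalgebra_near_continuous_of_separatesPoints`, or `exists_mem_subalgebra_near_continuous_of_isCompact_of_separatesPoints`).
Finally average `h` with `h ∘ rf e` (`exists_rfL`, `lap_iso`).  Extra files K/PolyA etc. allowed.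
-/

set_option maxSynthPendingDepth 3

open MeasureTheory Filter Topology Set Metric
open scoped ContDiff RealInnerProductSpace NNReal

noncomputable section

namespace Vale.Agent.P098

variable {d : ℕ}

section

open MvPolynomial

/-- The function of a polynomial. -/
def poly_f (p : MvPolynomial (Fin d) ℝ) (x : E d) : ℝ := eval (fun i => x i) p

/-- The Laplacian on polynomials. -/
def poly_L : MvPolynomial (Fin d) ℝ →ₗ[ℝ] MvPolynomial (Fin d) ℝ :=
  ∑ i, (pderiv i).toLinearMap ∘ₗ (pderiv i).toLinearMap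

theorem poly_L_apply (p : MvPolynomial (Fin d) ℝ) : poly_L p = ∑ i, pderiv i (pderiv i p) := by
  simp [poly_L, LinearMap.sum_apply]

theorem poly_coord (j : Fin d) (x : E d) :
    HasFDerivAt (fun y : E d => y j) (EuclideanSpace.proj j : E d →L[ℝ] ℝ) x :=
  (EuclideanSpace.proj j : E d →L[ℝ] ℝ).hasFDerivAt

theorem poly_smooth (p : MvPolynomial (Fin d) ℝ) : ContDiff ℝ ∞ (poly_f p) := by
  induction p using MvPolynomial.induction_on with
  | C a =>
    have : poly_f (C a : MvPolynomial (Fin d) ℝ) = fun _ => a := by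
      funext x; simp [poly_f]
    rw [this]; exact contDiff_const
  | add p q hp hq =>
    have : poly_f (p + q) = fun x => poly_f p x + poly_f q x := by
      funext x; simp [poly_f]
    rw [this]; exact hp.add hq
  | mul_X p j hp =>
    have : poly_f (p * X j) = fun x => poly_f p x * x j := by
      funext x; simp [poly_f]
    rw [this]
    exact hp.mul (EuclideanSpace.proj j : E d →L[ℝ] ℝ).contDiff

theorem poly_diff (p : MvPolynomial (Fin d) ℝ) (x : E d) : DifferentiableAt ℝ (poly_f p) x :=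
  (poly_smooth p).differentiable (by simp) x

theorem poly_two (p : MvPolynomial (Fin d) ℝ) : ContDiff ℝ 2 (poly_f p) :=
  (poly_smooth p).of_le (WithTop.coe_le_coe.2 le_top : ((2 : ℕ∞) : WithTop ℕ∞) ≤ ((⊤ : ℕ∞) : WithTop ℕ∞))

theorem poly_fderiv (p : MvPolynomial (Fin d) ℝ) (i : Fin d) (x : E d) :
    fderiv ℝ (poly_f p) x (bv i) = poly_f (pderiv i p) x := by
  induction p using MvPolynomial.induction_on with
  | C a =>
    have : poly_f (C a : MvPolynomial (Fin d) ℝ) = fun _ => a := by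
      funext x; simp [poly_f]
    rw [this]; simp [poly_f]
  | add p q hp hq =>
    have : poly_f (p + q) = fun x => poly_f p x + poly_f q x := by
      funext x; simp [poly_f]
    rw [this, fderiv_fun_add (poly_diff p x) (poly_diff q x), add_apply, hp, hq]
    simp [poly_f]
  | mul_X p j hp =>
    have : poly_f (p * X j) = fun x => poly_f p x * x j := by
      funext x; simp [poly_f]
    have h := ((poly_diff p x).hasFDerivAt.mul (poly_coord j x)).fderiv
    have h' : fderiv ℝ (fun x : E d => poly_f p x * x j) x = _ := h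
    rw [this, h']
    have e : (EuclideanSpace.proj j : E d →L[ℝ] ℝ) (bv i) = if j = i then 1 else 0 := bv_apply i j
    simp only [add_apply, smul_apply, hp, e, smul_eq_mul]
    by_cases hij : j = i
    · subst hij
      simp [poly_f]
    · simp [poly_f, hij, pderiv_X_of_ne hij]

theorem poly_lap (p : MvPolynomial (Fin d) ℝ) (x : E d) :
    lap (poly_f p) x = poly_f (poly_L p) x := by
  have h : ∀ i, D2 (poly_f p) x (bv i) (bv i) = poly_f (pderiv i (pderiv i p)) x := fun i => by
    rw [D2_apply (poly_two p).contDiffAt, ← poly_fderiv]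
    simp only [poly_fderiv]
  simp only [lap, tr, h, poly_L_apply, poly_f, map_sum]

theorem poly_deg {p : MvPolynomial (Fin d) ℝ} {m : ℕ} (h : p.totalDegree ≤ m + 1) (i : Fin d) :
    (pderiv i p).totalDegree ≤ m := by
  refine Finset.sup_le fun s hs => ?_
  have h1 : coeff (s + Finsupp.single i 1) p ≠ 0 := by
    have := mem_support_iff.1 hs
    rw [coeff_pderiv] at this
    exact left_ne_zero_of_mul this
  have h2 := (le_totalDegree (mem_support_iff.2 h1)).trans h
  rw [Finsupp.sum_add_index' (fun _ => rfl) (fun _ _ _ => rfl), Finsupp.sum_single_index rfl] at h2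
  omega

theorem poly_L_deg {p : MvPolynomial (Fin d) ℝ} {m : ℕ} (h : p.totalDegree ≤ m + 2) :
    (poly_L p).totalDegree ≤ m := by
  rw [poly_L_apply]
  exact totalDegree_finsetSum_le fun i _ => poly_deg (poly_deg h i) i

theorem poly_lin (e : E d) : ∃ l : MvPolynomial (Fin d) ℝ, l.totalDegree ≤ 1 ∧
    ∀ x, poly_f l x = ⟪e, x⟫ := by
  refine ⟨∑ i, C (e i) * X i, totalDegree_finsetSum_le fun i _ => ?_, fun x => ?_⟩
  · refine (totalDegree_mul _ _).trans ?_
    rw [totalDegree_C, totalDegree_X]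
  · simp [poly_f, inner_eq_sum]

theorem poly_q (e : E d) (a b : ℝ) : ∃ q : MvPolynomial (Fin d) ℝ, q.totalDegree ≤ 2 ∧
    ∀ x, poly_f q x = 1 - Ql e a b x := by
  obtain ⟨l, hl, hl'⟩ := poly_lin e
  have h1 : ∀ (c : ℝ) (p : MvPolynomial (Fin d) ℝ), p.totalDegree ≤ 2 →
      (C c * p).totalDegree ≤ 2 := fun c p hp => by
    refine (totalDegree_mul _ _).trans ?_
    rw [totalDegree_C]; omega
  refine ⟨1 + (C (-a) * ∑ i, X i * X i + C (-b) * (l * l)), ?_, fun x => ?_⟩
  · refine (totalDegree_add _ _).trans (max_le (by simp) ((totalDegree_add _ _).trans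
      (max_le (h1 _ _ (totalDegree_finsetSum_le fun i _ => ?_)) (h1 _ _ ?_))))
    · refine (totalDegree_mul _ _).trans ?_
      rw [totalDegree_X]
    · exact (totalDegree_mul _ _).trans (by omega)
  · have h2 := hl' x
    rw [poly_f] at h2
    simp only [poly_f, map_add, map_mul, map_one, eval_C, map_sum, eval_X, h2, Ql,
      ← real_inner_self_eq_norm_sq, inner_eq_sum x x]
    ring

theorem poly_zero {p : MvPolynomial (Fin d) ℝ} {e : E d} {a b : ℝ}
    (h : ∀ x, Ql e a b x ≤ 1 → poly_f p x = 0) : p = 0 := by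
  have h1 : Continuous fun v : Fin d → ℝ => Ql e a b (WithLp.toLp 2 v) :=
    (continuous_Ql e a b).comp (PiLp.continuous_toLp 2 _)
  have h2 : {v : Fin d → ℝ | Ql e a b (WithLp.toLp 2 v) < 1} ∈ 𝓝 (0 : Fin d → ℝ) :=
    (isOpen_lt h1 continuous_const).mem_nhds (by simp [Ql])
  obtain ⟨r, hr, hb⟩ := Metric.mem_nhds_iff.1 h2
  refine funext_set (fun _ => Ioo (-r) r) (fun _ => Ioo_infinite (by linarith)) fun v hv => ?_
  have h3 : v ∈ ball (0 : Fin d → ℝ) r := by
    rw [ball_pi _ hr]
    intro i hi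
    simpa [abs_lt] using hv i hi
  simpa [poly_f] using h _ (le_of_lt (hb h3))

theorem poly_inj {e : E d} (he : ‖e‖ = 1) {a b : ℝ} (ha : 0 < a) (hb : 0 ≤ b)
    {p : MvPolynomial (Fin d) ℝ} (h1 : poly_L p = 0) (h2 : ∀ x, Ql e a b x = 1 → poly_f p x = 0) :
    p = 0 := by
  have key : ∀ p : MvPolynomial (Fin d) ℝ, poly_L p = 0 → (∀ x, Ql e a b x = 1 → poly_f p x = 0) →
      ∀ x, Ql e a b x ≤ 1 → poly_f p x ≤ 0 := fun p h1 h2 =>
    max_principle (pos_of_unit he) (isCompact_Ql e ha hb) (poly_two p)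
      (fun x _ => by rw [poly_lap, h1]; simp [poly_f])
      (fun x hx => (h2 x (frontier_Ql e a b x hx)).le)
  refine poly_zero (e := e) (a := a) (b := b) fun x hx => le_antisymm (key p h1 h2 x hx) ?_
  have := key (-p) (by rw [map_neg, h1, neg_zero])
    (fun x hx => by have := h2 x hx; simp only [poly_f, map_neg] at this ⊢; linarith) x hx
  simp only [poly_f, map_neg] at this ⊢
  linarith

theorem poly_dir {e : E d} (he : ‖e‖ = 1) {a b : ℝ} (ha : 0 < a) (hb : 0 ≤ b)
    (p : MvPolynomial (Fin d) ℝ) : ∃ h : MvPolynomial (Fin d) ℝ, poly_L h = 0 ∧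
      ∀ x, Ql e a b x = 1 → poly_f h x = poly_f p x := by
  obtain ⟨q, hq, hq'⟩ := poly_q e a b
  have hq0 : q ≠ 0 := fun h => by
    have := hq' 0
    simp [h, poly_f, Ql] at this
  have hv : ∀ r x, Ql e a b x = 1 → poly_f (q * r) x = 0 := fun r x hx => by
    have := hq' x
    rw [hx, sub_self, poly_f] at this
    simp [poly_f, this]
  obtain ⟨T, hT⟩ : ∃ T : restrictTotalDegree (Fin d) ℝ p.totalDegree →ₗ[ℝ]
      restrictTotalDegree (Fin d) ℝ p.totalDegree, ∀ r, (T r : MvPolynomial (Fin d) ℝ) =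
        poly_L (q * r.1) := by
    refine ⟨(poly_L ∘ₗ LinearMap.mulLeft ℝ q).restrict fun r hr => ?_, fun r => rfl⟩
    rw [mem_restrictTotalDegree] at hr ⊢
    exact poly_L_deg ((totalDegree_mul _ _).trans (by omega))
  have hi : Function.Injective T := by
    rw [injective_iff_map_eq_zero]
    intro r hr
    have h1 : poly_L (q * r.1) = 0 := by rw [← hT, hr]; rfl
    exact Subtype.ext ((mul_eq_zero.1 (poly_inj he ha hb h1 (hv _))).resolve_left hq0)
  obtain ⟨r, hr⟩ := LinearMap.injective_iff_surjective.1 hi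
    ⟨poly_L p, (mem_restrictTotalDegree _ _ _).2 (poly_L_deg (by omega))⟩
  refine ⟨p - q * r.1, ?_, fun x hx => ?_⟩
  · rw [map_sub, ← hT, hr, sub_self]
  · have := hv r.1 x hx
    simp only [poly_f, map_sub] at this ⊢
    linarith

theorem poly_sw {f : E d → ℝ} (hf : Continuous f) {K : Set (E d)} (hK : IsCompact K) {δ : ℝ}
    (hδ : 0 < δ) : ∃ p : MvPolynomial (Fin d) ℝ, ∀ x ∈ K, |poly_f p x - f x| ≤ δ := by
  obtain ⟨c, hc⟩ : ∃ c : Fin d → C(E d, ℝ), ∀ i x, c i x = x i :=
    ⟨fun i => ⟨fun x => x i, (EuclideanSpace.proj i : E d →L[ℝ] ℝ).continuous⟩, fun _ _ => rfl⟩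
  have h1 : ∀ (p : MvPolynomial (Fin d) ℝ) (x : E d), aeval c p x = poly_f p x := by
    intro p x
    induction p using MvPolynomial.induction_on with
    | C a => simp [poly_f]
    | add p q hp hq => simp only [poly_f, map_add, ContinuousMap.add_apply, hp, hq]
    | mul_X p j hp => simp only [poly_f, map_mul, ContinuousMap.mul_apply, hp, aeval_X, eval_X, hc]
  have h2 : (aeval c : MvPolynomial (Fin d) ℝ →ₐ[ℝ] C(E d, ℝ)).range.SeparatesPoints := by
    intro x y hxy
    obtain ⟨i, hi⟩ : ∃ i, x i ≠ y i := by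
      by_contra h
      simp only [not_exists, not_not] at h
      exact hxy (PiLp.ext h)
    exact ⟨c i, ⟨c i, ⟨X i, aeval_X c i⟩, rfl⟩, by rwa [hc, hc]⟩
  obtain ⟨g, ⟨p, rfl⟩, hg⟩ :=
    ContinuousMap.exists_mem_subalgebra_near_continuous_of_isCompact_of_separatesPoints h2
      ⟨f, hf⟩ hK hδ
  refine ⟨p, fun x hx => ?_⟩
  rw [← h1]
  exact (hg x hx).le

end

theorem exists_harm_approx {e : E d} (he : ‖e‖ = 1) {a b : ℝ} (ha : 0 < a) (hb : 0 ≤ b)
    {f : E d → ℝ} (hf : Continuous f) (hv : ∀ x, f (rf e x) = f x) {δ : ℝ} (hδ : 0 < δ) :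
    ∃ h : E d → ℝ, ContDiff ℝ ∞ h ∧ (∀ x, lap h x = 0) ∧ (∀ x, h (rf e x) = h x) ∧
      ∀ x, Ql e a b x = 1 → |h x - f x| ≤ δ := by
  have hK : IsCompact {x | Ql e a b x = 1} :=
    (isCompact_Ql e ha hb).of_isClosed_subset (isClosed_eq (continuous_Ql e a b) continuous_const)
      fun x hx => le_of_eq hx
  obtain ⟨p, hp⟩ := poly_sw hf hK hδ
  obtain ⟨h, h1, h2⟩ := poly_dir he ha hb p
  obtain ⟨R, hR⟩ := exists_rfL he
  have s1 := poly_smooth h
  have s2 : ContDiff ℝ ∞ fun x => poly_f h (R x) := s1.comp R.contDiff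
  have t2 : ContDiff ℝ 2 fun x => poly_f h (R x) := (poly_two h).comp R.contDiff
  have l1 : ∀ x, lap (poly_f h) x = 0 := fun x => by
    rw [poly_lap, h1]; simp [poly_f]
  refine ⟨fun x => 1 / 2 * (poly_f h x + poly_f h (R x)), contDiff_const.mul (s1.add s2),
    fun x => ?_, fun x => ?_, fun x hx => ?_⟩
  · rw [lap_const_mul _ ((poly_two h).add t2).contDiffAt,
      lap_add (poly_two h).contDiffAt t2.contDiffAt, lap_iso, l1, l1]
    ring
  · simp only [hR, rf_rf he]
    ring
  · have hx' : Ql e a b (rf e x) = 1 := by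
      rw [← hx, Ql, Ql, norm_rf he, inner_rf he, neg_sq]
    have a1 := abs_le.1 (hp x hx)
    have a2 := abs_le.1 (hp _ hx')
    rw [hv] at a2
    simp only [hR]
    rw [h2 x hx, h2 _ hx', abs_le]
    constructor <;> linarith [a1.1, a1.2, a2.1, a2.2]

end Vale.Agent.P098
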