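import Vale.Agent.P098.Basic

/-!
# P098 K/Alg  (helper names start with alg_)

Linear algebra in `E d`.  `EuclideanSpace.basisFun`, `InnerProductSpace.toDual`, `OrthonormalBasis.sum_repr`, `Submodule.reflection`, `Submodule.reflection_sub`.
`tr_basis`: expand `bv i` in the basis `b` (`OrthonormalBasis.sum_inner_mul_inner`).  `exists_B2`, `exists_B3`: `LinearMap.mk₂`, `LinearMap.toContinuousLinearMap`.
-/

set_option maxSynthPendingDepth 3

open MeasureTheory Filter Topology Set Metric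
open scoped ContDiff RealInnerProductSpace NNReal

noncomputable section

namespace Vale.Agent.P098

variable {d : ℕ}

theorem norm_bv (i : Fin d) : ‖bv i‖ = 1 := by simp [bv]
theorem bv_apply (i j : Fin d) : bv i j = if j = i then 1 else 0 := by simp [bv]
theorem inner_bv (x : E d) (i : Fin d) : ⟪x, bv i⟫ = x i := by
  simp [bv, EuclideanSpace.inner_single_right]
theorem alg_bv (i : Fin d) : EuclideanSpace.basisFun (Fin d) ℝ i = bv i := by simp [bv]
theorem sum_smul_bv (x : E d) : ∑ i, x i • bv i = x := by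
  simpa only [alg_bv, EuclideanSpace.basisFun_repr] using
    (EuclideanSpace.basisFun (Fin d) ℝ).sum_repr x
theorem inner_eq_sum (x y : E d) : ⟪x, y⟫ = ∑ i, x i * y i := by
  simp [PiLp.inner_apply, mul_comm]
theorem apply_eq_sum (l : B1 d) (x : E d) : l x = ∑ i, x i * l (bv i) := by
  conv_lhs => rw [← sum_smul_bv x]
  simp only [map_sum, map_smul, smul_eq_mul]
/-- the vector of a linear form -/
def alg_v (l : B1 d) : E d := (InnerProductSpace.toDual ℝ (E d)).symm l
theorem alg_inner (l : B1 d) (x : E d) : ⟪alg_v l, x⟫ = l x :=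
  InnerProductSpace.toDual_symm_apply
theorem alg_apply (l : B1 d) (i : Fin d) : alg_v l i = l (bv i) := by rw [← inner_bv, alg_inner]
theorem alg_norm (l : B1 d) : ‖alg_v l‖ = ‖l‖ := LinearIsometryEquiv.norm_map _ _
theorem alg_sum (l m : B1 d) : ∑ i, l (bv i) * m (bv i) = ⟪alg_v l, alg_v m⟫ := by
  simp only [inner_eq_sum, alg_apply]
theorem sum_sq_bv (l : B1 d) : ∑ i, l (bv i) ^ 2 = ‖l‖ ^ 2 := by
  simp only [sq]
  rw [alg_sum, real_inner_self_eq_norm_mul_norm, alg_norm]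
theorem abs_sum_bv_le (l m : B1 d) : |∑ i, l (bv i) * m (bv i)| ≤ ‖l‖ * ‖m‖ := by
  rw [alg_sum, ← alg_norm l, ← alg_norm m]
  exact abs_real_inner_le_norm _ _
theorem norm_add_sq_B1 (l m : B1 d) :
    ‖l + m‖ ^ 2 = ‖l‖ ^ 2 + 2 * ∑ i, l (bv i) * m (bv i) + ‖m‖ ^ 2 := by
  simp only [← sum_sq_bv, Finset.mul_sum, ← Finset.sum_add_distrib, _root_.add_apply]
  exact Finset.sum_congr rfl fun i _ => by ring
theorem sum_innerSL_bv (e : E d) (m : B1 d) : ∑ i, innerSL ℝ e (bv i) * m (bv i) = m e := by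
  simp only [innerSL_apply_apply, inner_bv, apply_eq_sum m e]
theorem pos_of_unit {e : E d} (he : ‖e‖ = 1) : 0 < d := by
  rcases Nat.eq_zero_or_pos d with rfl | h
  · rw [Subsingleton.elim e 0, norm_zero] at he
    exact absurd he zero_ne_one
  · exact h
theorem dot_self (f : E d → ℝ) (x : E d) : dot f f x = ‖fderiv ℝ f x‖ ^ 2 := by
  simp only [dot, ← sq, sum_sq_bv]
theorem dot_comm (f g : E d → ℝ) (x : E d) : dot f g x = dot g f x :=
  Finset.sum_congr rfl fun _ _ => mul_comm _ _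
theorem abs_dot_le (f g : E d → ℝ) (x : E d) :
    |dot f g x| ≤ ‖fderiv ℝ f x‖ * ‖fderiv ℝ g x‖ := abs_sum_bv_le _ _
theorem measurable_dot (f g : E d → ℝ) : Measurable (dot f g) :=
  Finset.measurable_fun_sum _ fun i _ =>
    (measurable_fderiv_apply_const ℝ f (bv i)).mul (measurable_fderiv_apply_const ℝ g (bv i))
theorem norm_gradient (f : E d → ℝ) (x : E d) : ‖gradient f x‖ = ‖fderiv ℝ f x‖ := alg_norm _
theorem inner_gradient (f : E d → ℝ) (x v : E d) : ⟪gradient f x, v⟫ = fderiv ℝ f x v :=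
  alg_inner _ _
theorem gradient_apply (f : E d → ℝ) (x : E d) (i : Fin d) :
    gradient f x i = fderiv ℝ f x (bv i) := alg_apply _ _
theorem dot_eq (f g : E d → ℝ) (x : E d) : dot f g x = fderiv ℝ f x (gradient g x) := by
  rw [dot, alg_sum, alg_inner]
  rfl
theorem tr_add (M N : B2 d) : tr (M + N) = tr M + tr N := by
  simp only [tr, _root_.add_apply, Finset.sum_add_distrib]
theorem tr_sub (M N : B2 d) : tr (M - N) = tr M - tr N := by
  simp only [tr, _root_.sub_apply, Finset.sum_sub_distrib]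
theorem tr_smul (c : ℝ) (M : B2 d) : tr (c • M) = c * tr M := by
  simp only [tr, _root_.smul_apply, smul_eq_mul, Finset.mul_sum]
theorem tr_zero : tr (0 : B2 d) = 0 := by simp [tr]
theorem continuous_tr : Continuous (tr : B2 d → ℝ) :=
  continuous_finsetSum _ fun _ _ =>
    (continuous_id.clm_apply continuous_const).clm_apply continuous_const
theorem abs_B2_le (M : B2 d) (v w : E d) : |M v w| ≤ ‖M‖ * ‖v‖ * ‖w‖ := M.le_opNorm₂ v w
theorem abs_tr_le (M : B2 d) : |tr M| ≤ d * ‖M‖ := by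
  refine (Finset.abs_sum_le_sum_abs _ _).trans ?_
  have := Finset.sum_le_card_nsmul Finset.univ (fun i => |M (bv i) (bv i)|) ‖M‖ fun i _ => by
    simpa only [norm_bv, mul_one] using abs_B2_le M (bv i) (bv i)
  simpa using this
theorem tr_basis {ι : Type} [Fintype ι] (b : OrthonormalBasis ι ℝ (E d)) (M : B2 d) :
    tr M = ∑ i, M (b i) (b i) := by
  have h1 : ∀ j, M (bv j) (bv j) = ∑ i, b i j * M (b i) (bv j) := fun j => by
    conv_lhs => rw [← congrArg (fun v => M v (bv j)) (b.sum_repr' (bv j))]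
    simp only [map_sum, map_smul, _root_.sum_apply, _root_.smul_apply,
      smul_eq_mul, inner_bv]
  simp only [tr, h1]
  rw [Finset.sum_comm]
  exact Finset.sum_congr rfl fun i _ => (apply_eq_sum _ _).symm
theorem tr_iso (R : E d ≃ₗᵢ[ℝ] E d) (M : B2 d) : ∑ i, M (R (bv i)) (R (bv i)) = tr M := by
  rw [tr_basis ((EuclideanSpace.basisFun (Fin d) ℝ).map R)]
  simp only [OrthonormalBasis.map_apply, alg_bv]
theorem abs_B3_le (K : B3 d) (a v w : E d) : |K a v w| ≤ ‖K‖ * ‖a‖ * ‖v‖ * ‖w‖ := by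
  refine (abs_B2_le (K a) v w).trans ?_
  gcongr
  exact K.le_opNorm a
theorem norm_B2_le {M : B2 d} {C : ℝ} (hC : 0 ≤ C) (h : ∀ v w, |M v w| ≤ C * ‖v‖ * ‖w‖) :
    ‖M‖ ≤ C := ContinuousLinearMap.opNorm_le_bound₂ M hC h
theorem norm_B3_le {K : B3 d} {C : ℝ} (hC : 0 ≤ C)
    (h : ∀ a v w, |K a v w| ≤ C * ‖a‖ * ‖v‖ * ‖w‖) : ‖K‖ ≤ C :=
  K.opNorm_le_bound hC fun a => norm_B2_le (by positivity) (h a)
theorem abs_sqf_le (M : B2 d) (v w : E d) : |sqf M v w| ≤ ‖M‖ ^ 2 * ‖v‖ * ‖w‖ := by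
  refine (abs_sum_bv_le (M v) (M w)).trans ?_
  calc ‖M v‖ * ‖M w‖ ≤ ‖M‖ * ‖v‖ * (‖M‖ * ‖w‖) :=
        mul_le_mul (M.le_opNorm v) (M.le_opNorm w) (norm_nonneg _) (by positivity)
    _ = _ := by ring
theorem sqf_comm (M : B2 d) (v w : E d) : sqf M v w = sqf M w v :=
  Finset.sum_congr rfl fun _ _ => mul_comm _ _
theorem exists_B2 (f : E d → E d → ℝ) (h1 : ∀ w, IsLinearMap ℝ fun v => f v w)
    (h2 : ∀ v, IsLinearMap ℝ (f v)) : ∃ M : B2 d, ∀ v w, M v w = f v w :=
  ⟨LinearMap.toContinuousLinearMap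
    { toFun := fun v => LinearMap.toContinuousLinearMap ((h2 v).mk' _)
      map_add' := fun a b => ContinuousLinearMap.ext fun w => (h1 w).map_add a b
      map_smul' := fun c a => ContinuousLinearMap.ext fun w => (h1 w).map_smul c a },
    fun _ _ => rfl⟩
theorem exists_B3 (f : E d → E d → E d → ℝ) (h1 : ∀ v w, IsLinearMap ℝ fun a => f a v w)
    (h2 : ∀ a w, IsLinearMap ℝ fun v => f a v w) (h3 : ∀ a v, IsLinearMap ℝ (f a v)) :
    ∃ K : B3 d, ∀ a v w, K a v w = f a v w := by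
  choose M hM using fun a => exists_B2 (f a) (h2 a) (h3 a)
  refine ⟨LinearMap.toContinuousLinearMap
    { toFun := M
      map_add' := fun a b => ?_
      map_smul' := fun c a => ?_ }, hM⟩
  · ext v w
    simp only [_root_.add_apply, hM]
    exact (h1 v w).map_add a b
  · ext v w
    simp only [_root_.smul_apply, hM, RingHom.id_apply]
    exact (h1 v w).map_smul c a
theorem exists_sqf (M : B2 d) : ∃ N : B2 d, ∀ v w, N v w = sqf M v w := by
  refine exists_B2 _ (fun w => ⟨fun a b => ?_, fun c a => ?_⟩) fun v => ⟨fun a b => ?_, fun c a => ?_⟩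
  all_goals
    simp only [sqf, map_add, map_smul, _root_.add_apply, add_mul, mul_add,
      _root_.smul_apply, smul_eq_mul, Finset.sum_add_distrib, Finset.mul_sum,
      mul_assoc, mul_left_comm]
theorem inner_rf {e : E d} (he : ‖e‖ = 1) (x : E d) : ⟪e, rf e x⟫ = -⟪e, x⟫ := by
  rw [rf, inner_sub_right, real_inner_smul_right, real_inner_self_eq_norm_sq, he]
  ring
theorem rf_rf {e : E d} (he : ‖e‖ = 1) (x : E d) : rf e (rf e x) = x := by
  rw [rf, inner_rf he, rf]
  module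
theorem norm_rf {e : E d} (he : ‖e‖ = 1) (x : E d) : ‖rf e x‖ = ‖x‖ := by
  refine (sq_eq_sq₀ (norm_nonneg _) (norm_nonneg _)).1 ?_
  rw [rf, norm_sub_sq_real, real_inner_smul_right, norm_smul, he, mul_one, Real.norm_eq_abs, sq_abs,
    real_inner_comm]
  ring
theorem rf_smul (e : E d) (c : ℝ) (x : E d) : rf e (c • x) = c • rf e x := by
  rw [rf, rf, real_inner_smul_right]
  module
theorem alg_rf_add (e x y : E d) : rf e (x + y) = rf e x + rf e y := by
  rw [rf, rf, rf, inner_add_right]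
  module
theorem exists_rfL {e : E d} (he : ‖e‖ = 1) : ∃ R : E d ≃ₗᵢ[ℝ] E d, ∀ x, R x = rf e x :=
  ⟨{ toFun := rf e
     invFun := rf e
     map_add' := alg_rf_add e
     map_smul' := rf_smul e
     left_inv := rf_rf he
     right_inv := rf_rf he
     norm_map' := norm_rf he }, fun _ => rfl⟩
theorem exists_iso {e e' : E d} (h : ‖e‖ = ‖e'‖) : ∃ R : E d ≃ₗᵢ[ℝ] E d, R e = e' :=
  ⟨_, Submodule.reflection_sub h⟩
theorem iso_rf (R : E d ≃ₗᵢ[ℝ] E d) (e x : E d) : R (rf e x) = rf (R e) (R x) := by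
  simp only [rf, map_sub, map_smul, LinearIsometryEquiv.inner_map_map]

end Vale.Agent.P098
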