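import Vale.Agent.P098.K.Calc

/-!
# P098 K/Max  (helper names start with max_)

The weak maximum principle: add `η ‖x‖ ^ 2`, at an interior maximum the second derivative along each line is nonpositive (1-D second derivative test for `t ↦ f (x + t • bv i)`:
if `g'' 0 > 0` and `g' 0 = 0` then `0` is a strict local minimum, `isLocalMin_of_deriv_deriv_pos` or by hand).
-/

set_option maxSynthPendingDepth 3

open MeasureTheory Filter Topology Set Metric
open scoped ContDiff RealInnerProductSpace NNReal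

noncomputable section

namespace Vale.Agent.P098

variable {d : ℕ}

theorem max_one {g : ℝ → ℝ} (hc : ContinuousAt g 0) (h : IsLocalMax g 0) :
    deriv (deriv g) 0 ≤ 0 := by
  by_contra hpos
  have hmin := isLocalMin_of_deriv_deriv_pos (not_le.mp hpos) h.deriv_eq_zero hc
  have he : g =ᶠ[𝓝 0] fun _ => g 0 := by
    filter_upwards [h, hmin] with t h1 h2 using le_antisymm h1 h2
  apply hpos
  rw [he.deriv.deriv_eq]
  simp

theorem max_line {f : E d → ℝ} {x : E d} (hf : ContDiffAt ℝ 2 f x) (h : IsLocalMax f x)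
    (v : E d) : D2 f x v v ≤ 0 := by
  have hl : ∀ t : ℝ, HasDerivAt (fun s : ℝ => x + s • v) v t := fun t => by
    simpa using ((hasDerivAt_id t).smul_const v).const_add x
  have h0 : x + (0 : ℝ) • v = x := by simp
  have ht : Tendsto (fun s : ℝ => x + s • v) (𝓝 0) (𝓝 x) := by
    have := (hl 0).continuousAt.tendsto
    rwa [h0] at this
  have hev : ∀ᶠ y in 𝓝 x, DifferentiableAt ℝ f y :=
    (hf.eventually (by simp)).mono fun y hy => hy.differentiableAt (by simp)
  have hd1 : deriv (fun s : ℝ => f (x + s • v)) =ᶠ[𝓝 0] fun s => fderiv ℝ f (x + s • v) v := by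
    filter_upwards [ht.eventually hev] with s hs
    exact (hs.hasFDerivAt.comp_hasDerivAt s (hl s)).deriv
  have hd2 : HasFDerivAt (fderiv ℝ f) (D2 f x) x :=
    ((hf.fderiv_right (m := 1) (by norm_num)).differentiableAt (by simp)).hasFDerivAt
  have hd3 : HasDerivAt (fun s : ℝ => fderiv ℝ f (x + s • v)) (D2 f x v) 0 :=
    hd2.comp_hasDerivAt_of_eq 0 (hl 0) h0.symm
  have hd4 : HasDerivAt (fun s : ℝ => fderiv ℝ f (x + s • v) v) (D2 f x v v) 0 := by
    simpa using hd3.clm_apply (hasDerivAt_const (0 : ℝ) v)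
  have hc : ContinuousAt (fun s : ℝ => f (x + s • v)) 0 :=
    ContinuousAt.comp_of_eq hf.continuousAt (hl 0).continuousAt h0
  have hm : IsLocalMax (fun s : ℝ => f (x + s • v)) 0 := by
    have := ht.eventually h
    simpa [IsLocalMax, IsMaxFilter] using this
  have := max_one hc hm
  rwa [hd1.deriv_eq, hd4.deriv] at this

theorem lap_nonpos_of_max {f : E d → ℝ} {x : E d} (hf : ContDiffAt ℝ 2 f x) (h : IsLocalMax f x) :
    lap f x ≤ 0 := by
  unfold lap tr
  exact Finset.sum_nonpos fun i _ => max_line hf h (bv i)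

theorem max_principle (hd : 0 < d) {D : Set (E d)} (hD : IsCompact D) {f : E d → ℝ}
    (hf : ContDiff ℝ 2 f) (h1 : ∀ x ∈ D, 0 ≤ lap f x) {M : ℝ} (h2 : ∀ x ∈ frontier D, f x ≤ M) :
    ∀ x ∈ D, f x ≤ M := by
  intro x hx
  obtain ⟨R, hR⟩ := hD.isBounded.exists_norm_le
  have hR0 : 0 ≤ R := (norm_nonneg _).trans (hR x hx)
  have hn : ContDiff ℝ 2 fun y : E d => ‖y‖ ^ 2 := contDiff_norm_sq ℝ
  have key : ∀ η : ℝ, 0 < η → f x ≤ M + η * R ^ 2 := by
    intro η hη
    have hg : ContDiff ℝ 2 fun y : E d => f y + η * ‖y‖ ^ 2 := hf.add (contDiff_const.mul hn)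
    obtain ⟨z, hz, hmax⟩ := hD.exists_isMaxOn ⟨x, hx⟩ hg.continuous.continuousOn
    have hzf : z ∈ frontier D := by
      rw [hD.isClosed.frontier_eq]
      refine ⟨hz, fun hi => ?_⟩
      have hl := lap_nonpos_of_max hg.contDiffAt (hmax.isLocalMax (mem_interior_iff_mem_nhds.1 hi))
      rw [lap_add hf.contDiffAt (contDiff_const.mul hn).contDiffAt,
        lap_const_mul η hn.contDiffAt, lap_normSq] at hl
      have hd' : (0 : ℝ) < d := Nat.cast_pos.2 hd
      have := h1 z hz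
      have : 0 < η * (2 * d) := by positivity
      linarith
    have h3 : f x + η * ‖x‖ ^ 2 ≤ f z + η * ‖z‖ ^ 2 := hmax hx
    have h4 : ‖z‖ ^ 2 ≤ R ^ 2 := pow_le_pow_left₀ (norm_nonneg _) (hR z hz) 2
    have h5 : 0 ≤ η * ‖x‖ ^ 2 := by positivity
    have h6 := mul_le_mul_of_nonneg_left h4 hη.le
    linarith [h2 z hzf]
  refine le_of_forall_pos_le_add fun ε hε => ?_
  have hp : 0 < R ^ 2 + 1 := by positivity
  refine (key (ε / (R ^ 2 + 1)) (by positivity)).trans ?_
  have : ε / (R ^ 2 + 1) * R ^ 2 ≤ ε := by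
    rw [div_mul_eq_mul_div, div_le_iff₀ hp]
    nlinarith
  linarith

/-- The ellipsoids. -/
def Ql (e : E d) (a b : ℝ) (x : E d) : ℝ := a * ‖x‖ ^ 2 + b * ⟪e, x⟫ ^ 2
theorem continuous_Ql (e : E d) (a b : ℝ) : Continuous (Ql e a b) := by
  unfold Ql
  fun_prop

theorem isCompact_Ql (e : E d) {a b : ℝ} (ha : 0 < a) (hb : 0 ≤ b) :
    IsCompact {x | Ql e a b x ≤ 1} := by
  refine (isCompact_closedBall (0 : E d) (1 + 1 / a)).of_isClosed_subset
    (isClosed_le (continuous_Ql e a b) continuous_const) fun x hx => ?_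
  rw [mem_closedBall_zero_iff]
  have h1 : a * ‖x‖ ^ 2 + b * ⟪e, x⟫ ^ 2 ≤ 1 := hx
  have h2 : 0 ≤ b * ⟪e, x⟫ ^ 2 := by positivity
  have h3 : ‖x‖ ^ 2 ≤ 1 / a := by
    rw [le_div_iff₀ ha]
    linarith
  nlinarith [sq_nonneg (‖x‖ - 1), sq_nonneg ‖x‖]

theorem frontier_Ql (e : E d) (a b : ℝ) : ∀ x ∈ frontier {x | Ql e a b x ≤ 1}, Ql e a b x = 1 :=
  fun _ hx => frontier_le_subset_eq (continuous_Ql e a b) continuous_const hx

end Vale.Agent.P098
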